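import Mathlib

/-!
# Discrete ground-state inequality on an increasing chain

Nodes are indexed `1, ..., m`, with ghost nodes `0` and `m + 1`.
-/

namespace Vale.Agent.Lib.P227G

open Finset

/-- The edge weights of a chain: reciprocal of the wedge of consecutive nodes. -/
noncomputable def edgeC (f g : ℕ → ℝ) (i : ℕ) : ℝ := 1 / (f i * g (i + 1) - f (i + 1) * g i)

/-- The node weight at node `i + 1` of a chain. -/
noncomputable def nodeQ (f g : ℕ → ℝ) (i : ℕ) : ℝ :=
  edgeC f g i + edgeC f g (i + 1)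
    - (f i * g (i + 2) - f (i + 2) * g i) * edgeC f g i * edgeC f g (i + 1)

/-- Hypotheses on a chain with ghost nodes. -/
structure IsChain (m : ℕ) (f g : ℕ → ℝ) : Prop where
  f_pos : ∀ i, 1 ≤ i → i ≤ m → 0 < f i
  g_pos : ∀ i, 1 ≤ i → i ≤ m → 0 < g i
  f_anti : ∀ i, 1 ≤ i → i < m → f (i + 1) < f i
  g_mono : ∀ i, 1 ≤ i → i < m → g i < g (i + 1)
  f_zero : f 0 = f 1
  g_zero : g 0 = - g 1
  f_last : f (m + 1) = - f m
  g_last : g (m + 1) = g m

variable {m : ℕ} {f g : ℕ → ℝ}

lemma IsChain.delta_pos (h : IsChain m f g) (hm : 1 ≤ m) {i : ℕ} (hi : i ≤ m) :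
    0 < f i * g (i + 1) - f (i + 1) * g i := by
  rcases Nat.eq_zero_or_pos i with rfl | hi0
  · have h1 := h.f_pos 1 le_rfl hm
    have h2 := h.g_pos 1 le_rfl hm
    rw [h.f_zero, h.g_zero, zero_add]
    nlinarith [mul_pos h1 h2]
  · rcases Nat.lt_or_ge i m with him | him
    · have h1 := h.f_pos i hi0 hi
      have h2 := h.g_pos i hi0 hi
      have h3 := h.f_pos (i + 1) (by omega) him
      have h4 := h.g_pos (i + 1) (by omega) him
      have h5 := h.f_anti i hi0 him
      have h6 := h.g_mono i hi0 him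
      nlinarith [mul_pos h1 h2, mul_pos h3 h4, mul_pos h3 (sub_pos.2 h6),
        mul_pos (sub_pos.2 h5) h2]
    · have : i = m := le_antisymm hi him
      subst this
      have h1 := h.f_pos i hi0 hi
      have h2 := h.g_pos i hi0 hi
      rw [h.f_last, h.g_last]
      nlinarith [mul_pos h1 h2]

lemma IsChain.edgeC_pos (h : IsChain m f g) (hm : 1 ≤ m) {i : ℕ} (hi : i ≤ m) :
    0 < edgeC f g i := by
  unfold edgeC
  exact one_div_pos.2 (h.delta_pos hm hi)

lemma IsChain.edgeC_mul (h : IsChain m f g) (hm : 1 ≤ m) {i : ℕ} (hi : i ≤ m) :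
    edgeC f g i * (f i * g (i + 1) - f (i + 1) * g i) = 1 := by
  unfold edgeC
  exact one_div_mul_cancel (h.delta_pos hm hi).ne'

/-- A linear relation between three vectors gives a three-term recursion. -/
lemma hill_aux (f0 f1 f2 g0 g1 g2 a0 a1 a2 c0 c1 : ℝ)
    (hc0 : c0 * (f0 * g1 - f1 * g0) = 1) (hc1 : c1 * (f1 * g2 - f2 * g1) = 1)
    (ha : (f0 * g1 - f1 * g0) * a2 + (f1 * g2 - f2 * g1) * a0 = (f0 * g2 - f2 * g0) * a1) :
    c1 * (a2 - a1) + c0 * (a0 - a1)
      = - (c0 + c1 - (f0 * g2 - f2 * g0) * c0 * c1) * a1 := by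
  linear_combination (-(c1 * a2)) * hc0 + (-(c0 * a0)) * hc1 + c0 * c1 * ha

/-- The discrete eigenvalue relation of a chain, first coordinate. -/
lemma IsChain.hill_f (h : IsChain m f g) (hm : 1 ≤ m) {i : ℕ} (hi : i < m) :
    edgeC f g (i + 1) * (f (i + 2) - f (i + 1)) + edgeC f g i * (f i - f (i + 1))
      = - nodeQ f g i * f (i + 1) :=
  hill_aux (f i) (f (i + 1)) (f (i + 2)) (g i) (g (i + 1)) (g (i + 2)) (f i) (f (i + 1)) (f (i + 2))
    _ _ (h.edgeC_mul hm (by omega)) (h.edgeC_mul hm (by omega)) (by ring)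

/-- The discrete eigenvalue relation of a chain, second coordinate. -/
lemma IsChain.hill_g (h : IsChain m f g) (hm : 1 ≤ m) {i : ℕ} (hi : i < m) :
    edgeC f g (i + 1) * (g (i + 2) - g (i + 1)) + edgeC f g i * (g i - g (i + 1))
      = - nodeQ f g i * g (i + 1) :=
  hill_aux (f i) (f (i + 1)) (f (i + 2)) (g i) (g (i + 1)) (g (i + 2)) (g i) (g (i + 1)) (g (i + 2))
    _ _ (h.edgeC_mul hm (by omega)) (h.edgeC_mul hm (by omega)) (by ring)

/-- The product test function is a supersolution. -/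
lemma IsChain.node_ineq (h : IsChain m f g) (hm : 1 ≤ m) {i : ℕ} (hi : i < m) :
    2 * nodeQ f g i * (f (i + 1) * g (i + 1)) ≤
      edgeC f g (i + 1) * (f (i + 1) * g (i + 1) - f (i + 2) * g (i + 2))
        + edgeC f g i * (f (i + 1) * g (i + 1) - f i * g i) := by
  have hf := h.hill_f hm hi
  have hg := h.hill_g hm hi
  have c1 := h.edgeC_pos hm (show i + 1 ≤ m by omega)
  have c0 := h.edgeC_pos hm (show i ≤ m by omega)
  -- sign of the discrete products
  have s1 : (f (i + 2) - f (i + 1)) * (g (i + 2) - g (i + 1)) ≤ 0 := by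
    rcases Nat.lt_or_ge (i + 1) m with hlt | hge
    · have h5 := h.f_anti (i + 1) (by omega) hlt
      have h6 := h.g_mono (i + 1) (by omega) hlt
      nlinarith [mul_pos (sub_pos.2 h5) (sub_pos.2 h6)]
    · have : m = i + 1 := by omega
      have e : g (i + 2) = g (i + 1) := by
        subst this; exact h.g_last
      rw [e]; simp
  have s0 : (f i - f (i + 1)) * (g i - g (i + 1)) ≤ 0 := by
    rcases Nat.eq_zero_or_pos i with rfl | hi0
    · simp [h.f_zero]
    · have h5 := h.f_anti i hi0 (by omega)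
      have h6 := h.g_mono i hi0 (by omega)
      nlinarith [mul_pos (sub_pos.2 h5) (sub_pos.2 h6)]
  have t1 := mul_nonpos_of_nonneg_of_nonpos c1.le s1
  have t0 := mul_nonpos_of_nonneg_of_nonpos c0.le s0
  have key : edgeC f g (i + 1) * (f (i + 1) * g (i + 1) - f (i + 2) * g (i + 2))
        + edgeC f g i * (f (i + 1) * g (i + 1) - f i * g i)
      = 2 * nodeQ f g i * (f (i + 1) * g (i + 1))
        - edgeC f g (i + 1) * ((f (i + 2) - f (i + 1)) * (g (i + 2) - g (i + 1)))
        - edgeC f g i * ((f i - f (i + 1)) * (g i - g (i + 1))) := by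
    have e1 : edgeC f g (i + 1) * (f (i + 2) * g (i + 2) - f (i + 1) * g (i + 1))
        + edgeC f g i * (f i * g i - f (i + 1) * g (i + 1))
        = g (i + 1) * (edgeC f g (i + 1) * (f (i + 2) - f (i + 1))
            + edgeC f g i * (f i - f (i + 1)))
          + f (i + 1) * (edgeC f g (i + 1) * (g (i + 2) - g (i + 1))
            + edgeC f g i * (g i - g (i + 1)))
          + edgeC f g (i + 1) * ((f (i + 2) - f (i + 1)) * (g (i + 2) - g (i + 1)))
          + edgeC f g i * ((f i - f (i + 1)) * (g i - g (i + 1))) := by ring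
    rw [hf, hg] at e1
    linarith
  rw [key]
  linarith

/-- An algebraic identity of the ground-state substitution. -/
lemma ground_state_edge (G G' v v' : ℝ) (hv : v ≠ 0) (hv' : v' ≠ 0) :
    (G - G') ^ 2 = v * v' * (G / v - G' / v') ^ 2 + (G / v) ^ 2 * v * (v - v')
      + (G' / v') ^ 2 * v' * (v' - v) := by
  field_simp
  ring

/-- The discrete ground-state inequality on a chain. -/
theorem IsChain.barta {n : ℕ} (h : IsChain (n + 1) f g) (G : ℕ → ℝ) :
    2 * ∑ i ∈ range (n + 1), nodeQ f g i * G i ^ 2 ≤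
      ∑ i ∈ range n, edgeC f g (i + 1) * (G i - G (i + 1)) ^ 2
        + 2 * edgeC f g 0 * G 0 ^ 2 + 2 * edgeC f g (n + 1) * G n ^ 2 := by
  have hm : 1 ≤ n + 1 := by omega
  set v : ℕ → ℝ := fun i => f (i + 1) * g (i + 1) with hv
  have vpos : ∀ i, i < n + 1 → 0 < v i := fun i hi =>
    mul_pos (h.f_pos (i + 1) (by omega) (by omega)) (h.g_pos (i + 1) (by omega) (by omega))
  set H : ℕ → ℝ := fun i => G i / v i with hH
  have hHG : ∀ i, i < n + 1 → H i ^ 2 * v i ^ 2 = G i ^ 2 := by
    intro i hi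
    have := (vpos i hi).ne'
    simp only [hH]
    field_simp
  -- the ghost values of the test function
  have v0 : f 0 * g 0 = - v 0 := by
    simp only [hv, h.f_zero, h.g_zero]; ring
  have vn : f (n + 2) * g (n + 2) = - v n := by
    have e1 : f (n + 2) = - f (n + 1) := h.f_last
    have e2 : g (n + 2) = g (n + 1) := h.g_last
    simp only [hv, e1, e2]; ring
  -- node inequalities
  have node : ∀ i, i < n + 1 → 2 * (nodeQ f g i * G i ^ 2) ≤
      H i ^ 2 * v i * (edgeC f g (i + 1) * (v i - f (i + 2) * g (i + 2))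
        + edgeC f g i * (v i - f i * g i)) := by
    intro i hi
    have h1 := h.node_ineq hm hi
    have h2 : 0 ≤ H i ^ 2 * v i := by have := vpos i hi; positivity
    have h3 := mul_le_mul_of_nonneg_left h1 h2
    have h4 : H i ^ 2 * v i * (2 * nodeQ f g i * (f (i + 1) * g (i + 1)))
        = 2 * (nodeQ f g i * G i ^ 2) := by
      rw [← hHG i hi]
      simp only [hv]
      ring
    rw [h4] at h3
    exact h3
  have sum1 := Finset.sum_le_sum (s := range (n + 1)) (fun i hi => node i (Finset.mem_range.1 hi))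
  rw [← Finset.mul_sum] at sum1
  refine sum1.trans ?_
  -- expand the right side
  have split : ∑ i ∈ range (n + 1), H i ^ 2 * v i * (edgeC f g (i + 1) * (v i - f (i + 2) * g (i + 2))
        + edgeC f g i * (v i - f i * g i))
      = ∑ i ∈ range (n + 1), H i ^ 2 * v i * (edgeC f g (i + 1) * (v i - f (i + 2) * g (i + 2)))
        + ∑ i ∈ range (n + 1), H i ^ 2 * v i * (edgeC f g i * (v i - f i * g i)) := by
    rw [← Finset.sum_add_distrib]
    exact Finset.sum_congr rfl fun i _ => by ring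
  rw [split, Finset.sum_range_succ, Finset.sum_range_succ' _ n]
  have e_top : H n ^ 2 * v n * (edgeC f g (n + 1) * (v n - f (n + 2) * g (n + 2)))
      = 2 * edgeC f g (n + 1) * G n ^ 2 := by
    rw [vn, ← hHG n (by omega)]; ring
  have e_bot : H 0 ^ 2 * v 0 * (edgeC f g 0 * (v 0 - f 0 * g 0))
      = 2 * edgeC f g 0 * G 0 ^ 2 := by
    rw [v0, ← hHG 0 (by omega)]; ring
  rw [e_top, e_bot]
  have inner : ∑ i ∈ range n, H i ^ 2 * v i * (edgeC f g (i + 1) * (v i - f (i + 2) * g (i + 2)))
      + ∑ i ∈ range n, H (i + 1) ^ 2 * v (i + 1) *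
          (edgeC f g (i + 1) * (v (i + 1) - f (i + 1) * g (i + 1)))
      ≤ ∑ i ∈ range n, edgeC f g (i + 1) * (G i - G (i + 1)) ^ 2 := by
    rw [← Finset.sum_add_distrib]
    refine Finset.sum_le_sum fun i hi => ?_
    have hi' := Finset.mem_range.1 hi
    have p1 := vpos i (by omega)
    have p2 := vpos (i + 1) (by omega)
    have hc := h.edgeC_pos hm (show i + 1 ≤ n + 1 by omega)
    have eG := ground_state_edge (G i) (G (i + 1)) (v i) (v (i + 1)) p1.ne' p2.ne'
    have e2 : f (i + 2) * g (i + 2) = v (i + 1) := rfl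
    have e3 : f (i + 1) * g (i + 1) = v i := rfl
    rw [e2, e3, eG]
    have hnn : 0 ≤ edgeC f g (i + 1) * (v i * v (i + 1) * (G i / v i - G (i + 1) / v (i + 1)) ^ 2) := by
      positivity
    simp only [hH]
    nlinarith [hnn]
  linarith

end Vale.Agent.Lib.P227G
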