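import Mathlib

/-!
# Triangles in the plane
-/

open MeasureTheory Set
open scoped ENNReal

namespace Vale.Agent.Lib.P227G

/-- The wedge product in the plane. -/
def wd (a b : ℝ × ℝ) : ℝ := a.1 * b.2 - a.2 * b.1

/-- The dot product in the plane. -/
def dt (a b : ℝ × ℝ) : ℝ := a.1 * b.1 + a.2 * b.2

/-- The triangle with vertices `0`, `A`, `B`. -/
def tri (A B : ℝ × ℝ) : Set (ℝ × ℝ) :=
  {z | ∃ s t : ℝ, 0 ≤ s ∧ 0 ≤ t ∧ s + t ≤ 1 ∧ z = (s * A.1 + t * B.1, s * A.2 + t * B.2)}

/-- The standard simplex in the plane. -/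
def stdSimplex2 : Set (ℝ × ℝ) := {z | 0 ≤ z.1 ∧ 0 ≤ z.2 ∧ z.1 + z.2 ≤ 1}

lemma measurableSet_stdSimplex2 : MeasurableSet stdSimplex2 := by
  have h1 : IsClosed stdSimplex2 := by
    have c1 : Continuous fun z : ℝ × ℝ => z.1 := continuous_fst
    have c2 : Continuous fun z : ℝ × ℝ => z.2 := continuous_snd
    exact (isClosed_le continuous_const c1).inter
      ((isClosed_le continuous_const c2).inter (isClosed_le (c1.add c2) continuous_const))
  exact h1.measurableSet

lemma volume_stdSimplex2 : volume stdSimplex2 = ENNReal.ofReal (1 / 2) := by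
  rw [Measure.volume_eq_prod, Measure.prod_apply measurableSet_stdSimplex2]
  have h1 : ∀ s : ℝ, volume (Prod.mk s ⁻¹' stdSimplex2)
      = (Icc (0:ℝ) 1).indicator (fun s => ENNReal.ofReal (1 - s)) s := by
    intro s
    by_cases hs : s ∈ Icc (0:ℝ) 1
    · rw [indicator_of_mem hs]
      have : Prod.mk s ⁻¹' stdSimplex2 = Icc 0 (1 - s) := by
        ext t
        simp only [stdSimplex2, mem_preimage, mem_ofPred_eq, mem_Icc]
        constructor
        · rintro ⟨_, h2, h3⟩
          exact ⟨h2, by linarith⟩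
        · rintro ⟨h2, h3⟩
          exact ⟨hs.1, h2, by linarith⟩
      rw [this, Real.volume_Icc]
      simp
    · rw [indicator_of_notMem hs]
      have : Prod.mk s ⁻¹' stdSimplex2 = ∅ := by
        ext t
        simp only [stdSimplex2, mem_preimage, mem_ofPred_eq, mem_empty_iff_false, iff_false]
        rintro ⟨h1, h2, h3⟩
        exact hs ⟨h1, by linarith⟩
      rw [this, measure_empty]
  simp_rw [h1]
  rw [lintegral_indicator measurableSet_Icc]
  rw [← ofReal_integral_eq_lintegral_ofReal]
  · congr 1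
    rw [integral_Icc_eq_integral_Ioc, ← intervalIntegral.integral_of_le zero_le_one]
    rw [intervalIntegral.integral_sub (by simp) (by simp)]
    simp
    norm_num
  · have : Continuous fun s : ℝ => 1 - s := by fun_prop
    exact this.continuousOn.integrableOn_compact isCompact_Icc
  · filter_upwards [ae_restrict_mem measurableSet_Icc] with s hs
    simp only [Pi.zero_apply]
    linarith [hs.2]

/-- The linear map sending the standard basis to `A`, `B`. -/
noncomputable def triMap (A B : ℝ × ℝ) : (ℝ × ℝ) →ₗ[ℝ] (ℝ × ℝ) where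
  toFun z := (z.1 * A.1 + z.2 * B.1, z.1 * A.2 + z.2 * B.2)
  map_add' x y := by
    ext <;> simp <;> ring
  map_smul' r x := by
    ext <;> simp <;> ring

lemma det_triMap (A B : ℝ × ℝ) : LinearMap.det (triMap A B) = wd A B := by
  rw [← LinearMap.det_toMatrix (Module.Basis.finTwoProd ℝ), Matrix.det_fin_two]
  simp [LinearMap.toMatrix_apply, triMap, wd]
  ring

lemma tri_eq_image (A B : ℝ × ℝ) : tri A B = triMap A B '' stdSimplex2 := by
  ext z
  constructor
  · rintro ⟨s, t, hs, ht, hst, rfl⟩
    exact ⟨(s, t), ⟨hs, ht, hst⟩, rfl⟩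
  · rintro ⟨⟨s, t⟩, ⟨hs, ht, hst⟩, rfl⟩
    exact ⟨s, t, hs, ht, hst, rfl⟩

/-- The area of a triangle with a vertex at the origin. -/
lemma volume_tri (A B : ℝ × ℝ) : volume (tri A B) = ENNReal.ofReal (|wd A B| / 2) := by
  rw [tri_eq_image, Measure.addHaar_image_linearMap, det_triMap, volume_stdSimplex2,
    ← ENNReal.ofReal_mul (abs_nonneg _)]
  congr 1
  ring

/-- A line through the origin has measure zero. -/
lemma volume_wd_eq_zero {V : ℝ × ℝ} (hV : V ≠ 0) : volume {x : ℝ × ℝ | wd x V = 0} = 0 := by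
  let φ : (ℝ × ℝ) →ₗ[ℝ] ℝ :=
    { toFun := fun x => x.1 * V.2 - x.2 * V.1
      map_add' := fun x y => by simp; ring
      map_smul' := fun r x => by simp; ring }
  have hφ : φ ≠ 0 := by
    intro h
    apply hV
    have h1 := LinearMap.congr_fun h ((1:ℝ), (0:ℝ))
    have h2 := LinearMap.congr_fun h ((0:ℝ), (1:ℝ))
    simp [φ] at h1 h2
    ext
    · simpa using h2
    · simpa using h1
  have hker : {x : ℝ × ℝ | wd x V = 0} = (LinearMap.ker φ : Set (ℝ × ℝ)) := by
    ext x
    simp [wd, φ]
  rw [hker]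
  apply Measure.addHaar_submodule
  intro htop
  apply hφ
  exact LinearMap.ker_eq_top.1 htop

lemma measurableSet_tri (A B : ℝ × ℝ) : MeasurableSet (tri A B) := by
  have : IsCompact (tri A B) := by
    rw [tri_eq_image]
    have hc : IsCompact stdSimplex2 := by
      apply Metric.isCompact_of_isClosed_isBounded
      · have c1 : Continuous fun z : ℝ × ℝ => z.1 := continuous_fst
        have c2 : Continuous fun z : ℝ × ℝ => z.2 := continuous_snd
        exact (isClosed_le continuous_const c1).inter
          ((isClosed_le continuous_const c2).inter (isClosed_le (c1.add c2) continuous_const))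
      · apply Bornology.IsBounded.subset (Metric.isBounded_Icc ((0:ℝ), (0:ℝ)) ((1:ℝ), (1:ℝ)))
        rintro ⟨s, t⟩ ⟨hs, ht, hst⟩
        simp only at hs ht hst
        exact ⟨⟨hs, ht⟩, ⟨by simp; linarith, by simp; linarith⟩⟩
    exact hc.image (triMap A B).continuous_of_finiteDimensional
  exact this.isClosed.measurableSet

end Vale.Agent.Lib.P227G
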