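import Mathlib
import Vale.Agent.Lib.P227G.Tri

/-!
# Covering a symmetric polygon by a fan of triangles
-/

open MeasureTheory Set
open scoped ENNReal

namespace Vale.Agent.Lib.P227G

/-- The intersection point of the lines `⟨x, y⟩ = 1`, `⟨x, y'⟩ = 1`. -/
noncomputable def vtx (y y' : ℝ × ℝ) : ℝ × ℝ := ((y'.2 - y.2) / wd y y', (y.1 - y'.1) / wd y y')

/-- The area of a triangle of the fan, in terms of the dual vertices. -/
noncomputable def qf (y0 y1 y2 : ℝ × ℝ) : ℝ :=
  (wd y0 y1 + wd y1 y2 - wd y0 y2) / (wd y0 y1 * wd y1 y2)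

lemma dt_vtx_left {y y' : ℝ × ℝ} (h : wd y y' ≠ 0) : dt (vtx y y') y = 1 := by
  simp only [dt, vtx]
  field_simp
  simp only [wd]
  ring

lemma dt_vtx_right {y y' : ℝ × ℝ} (h : wd y y' ≠ 0) : dt (vtx y y') y' = 1 := by
  simp only [dt, vtx]
  field_simp
  simp only [wd]
  ring

lemma vtx_neg (y y' : ℝ × ℝ) : vtx (-y) (-y') = - vtx y y' := by
  have : wd (-y) (-y') = wd y y' := by simp [wd]
  ext
  · simp only [vtx, this, Prod.fst_neg, Prod.snd_neg]
    ring
  · simp only [vtx, this, Prod.fst_neg, Prod.snd_neg]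
    ring

/-- The wedge of consecutive vertices of the polygon. -/
lemma wd_vtx {y0 y1 y2 : ℝ × ℝ} (h0 : wd y0 y1 ≠ 0) (h1 : wd y1 y2 ≠ 0) :
    wd (vtx y0 y1) (vtx y1 y2) = qf y0 y1 y2 := by
  simp only [wd, vtx, qf] at *
  field_simp
  ring

/-- The basic identity relating wedges of three plane vectors and a linear form. -/
lemma wd_sub_wd (x a b y : ℝ × ℝ) :
    (wd x a) * dt b y - (wd x b) * dt a y = - wd a b * dt x y := by
  simp only [wd, dt]
  ring

/-- Reconstruction of a plane vector from its wedges with two independent vectors. -/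
lemma eq_of_wd (x a b : ℝ × ℝ) (hd : wd a b ≠ 0) :
    x = ((wd x b / wd a b) * a.1 + (- wd x a / wd a b) * b.1,
      (wd x b / wd a b) * a.2 + (- wd x a / wd a b) * b.2) := by
  ext
  · simp only
    field_simp
    simp only [wd]
    ring
  · simp only
    field_simp
    simp only [wd]
    ring

/-- A sequence of nonzero reals with `φ N = - φ 0` changes sign. -/
lemma exists_sign_change (φ : ℕ → ℝ) (N : ℕ) (hN : φ N = - φ 0) (hne : ∀ j ≤ N, φ j ≠ 0) :
    ∃ j < N, φ j * φ (j + 1) < 0 := by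
  by_contra hcon
  push Not at hcon
  have key : ∀ j ≤ N, 0 < φ 0 * φ j := by
    intro j
    induction j with
    | zero =>
      intro _
      have := hne 0 (Nat.zero_le _)
      exact mul_self_pos.2 this
    | succ k ih =>
      intro hk
      have h1 := ih (by omega)
      have h2 := hcon k (by omega)
      have h3 := hne k (by omega)
      have h4 := hne (k + 1) hk
      have h5 : 0 < φ k * φ (k + 1) := lt_of_le_of_ne h2 (Ne.symm (mul_ne_zero h3 h4))
      have h6 : 0 < (φ 0 * φ k) * (φ k * φ (k + 1)) := mul_pos h1 h5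
      have h7 : (φ 0 * φ k) * (φ k * φ (k + 1)) = (φ 0 * φ (k + 1)) * φ k ^ 2 := by ring
      rw [h7] at h6
      have h8 : 0 < φ k ^ 2 := by positivity
      exact (mul_pos_iff_of_pos_right h8).1 h6
  have h := key N le_rfl
  rw [hN] at h
  nlinarith [sq_nonneg (φ 0)]

/-- The covering step for one point. -/
lemma mem_fan {N : ℕ} {Y : ℕ → ℝ × ℝ} (hY0 : Y N = - Y 0) (hY1 : Y (N + 1) = - Y 1)
    (hd : ∀ j ≤ N, 0 < wd (Y j) (Y (j + 1)))
    (hq : ∀ j < N, wd (Y j) (Y (j + 2)) ≤ wd (Y j) (Y (j + 1)) + wd (Y (j + 1)) (Y (j + 2)))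
    {x : ℝ × ℝ} (hx : ∀ j < N, |dt x (Y j)| ≤ 1) (hnz : ∀ j < N, wd x (vtx (Y j) (Y (j + 1))) ≠ 0)
    (hN : 0 < N) :
    ∃ j < N, x ∈ tri (vtx (Y j) (Y (j + 1))) (vtx (Y (j + 1)) (Y (j + 2))) ∨
      x ∈ tri (- vtx (Y j) (Y (j + 1))) (- vtx (Y (j + 1)) (Y (j + 2))) := by
  set V : ℕ → ℝ × ℝ := fun j => vtx (Y j) (Y (j + 1)) with hV
  have hVN : V N = - V 0 := by
    simp only [hV]
    rw [hY0, hY1, vtx_neg]
  set φ : ℕ → ℝ := fun j => wd x (V j) with hφ
  have hφN : φ N = - φ 0 := by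
    simp only [hφ, hVN, wd, Prod.fst_neg, Prod.snd_neg]
    ring
  have hφne : ∀ j ≤ N, φ j ≠ 0 := by
    intro j hj
    rcases Nat.lt_or_ge j N with h | h
    · exact hnz j h
    · have : j = N := le_antisymm hj h
      subst this
      rw [hφN]
      exact neg_ne_zero.2 (hnz 0 hN)
  obtain ⟨j, hj, hsign⟩ := exists_sign_change φ N hφN hφne
  refine ⟨j, hj, ?_⟩
  have d0 := (hd j hj.le).ne'
  have d1 := (hd (j + 1) hj).ne'
  set a := V j with ha
  set b := V (j + 1) with hb
  have ea : dt a (Y (j + 1)) = 1 := dt_vtx_right d0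
  have eb : dt b (Y (j + 1)) = 1 := dt_vtx_left d1
  have hab : wd a b = qf (Y j) (Y (j + 1)) (Y (j + 2)) := wd_vtx d0 d1
  have hab0 : 0 ≤ wd a b := by
    rw [hab]
    apply div_nonneg
    · linarith [hq j hj]
    · exact (mul_pos (hd j hj.le) (hd (j + 1) hj)).le
  have form := wd_sub_wd x a b (Y (j + 1))
  rw [ea, eb, mul_one, mul_one] at form
  change φ j - φ (j + 1) = _ at form
  have hdne : wd a b ≠ 0 := by
    intro h0
    rw [h0] at form
    have : φ j = φ (j + 1) := by linarith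
    rw [← this] at hsign
    nlinarith [mul_self_nonneg (φ j)]
  have hdpos : 0 < wd a b := lt_of_le_of_ne hab0 (Ne.symm hdne)
  have hrec := eq_of_wd x a b hdne
  have hsum : wd x b / wd a b + - wd x a / wd a b = dt x (Y (j + 1)) := by
    field_simp
    change φ (j + 1) - φ j = _
    linarith
  have habs : |dt x (Y (j + 1))| ≤ 1 := by
    rcases Nat.lt_or_ge (j + 1) N with h | h
    · exact hx _ h
    · have : j + 1 = N := le_antisymm hj h
      rw [this, hY0]
      have : dt x (- Y 0) = - dt x (Y 0) := by simp [dt]; ring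
      rw [this, abs_neg]
      exact hx 0 hN
  rcases mul_neg_iff.1 hsign with ⟨h1, h2⟩ | ⟨h1, h2⟩
  · -- `φ j > 0 > φ (j + 1)`
    right
    refine ⟨- (wd x b / wd a b), - (- wd x a / wd a b), ?_, ?_, ?_, ?_⟩
    · have : wd x b / wd a b < 0 := div_neg_of_neg_of_pos h2 hdpos
      linarith
    · have : - wd x a / wd a b < 0 := div_neg_of_neg_of_pos (by simpa using h1) hdpos
      linarith
    · have := (abs_le.1 habs).1
      linarith
    · conv_lhs => rw [hrec]
      ext <;> simp <;> ring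
  · left
    refine ⟨wd x b / wd a b, - wd x a / wd a b, ?_, ?_, ?_, hrec⟩
    · exact (div_pos h2 hdpos).le
    · exact (div_pos (by simpa using h1) hdpos).le
    · have := (abs_le.1 habs).2
      linarith

/-- The area bound for a symmetric polygon in terms of its dual vertices. -/
theorem fan_bound {N : ℕ} (hN : 0 < N) {Y : ℕ → ℝ × ℝ} (hY0 : Y N = - Y 0)
    (hY1 : Y (N + 1) = - Y 1)
    (hd : ∀ j ≤ N, 0 < wd (Y j) (Y (j + 1)))
    (hq : ∀ j < N, wd (Y j) (Y (j + 2)) ≤ wd (Y j) (Y (j + 1)) + wd (Y (j + 1)) (Y (j + 2))) :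
    volume {x : ℝ × ℝ | ∀ j < N, |dt x (Y j)| ≤ 1}
      ≤ ENNReal.ofReal (∑ j ∈ Finset.range N, qf (Y j) (Y (j + 1)) (Y (j + 2))) := by
  classical
  set V : ℕ → ℝ × ℝ := fun j => vtx (Y j) (Y (j + 1)) with hV
  have hV0 : ∀ j < N, V j ≠ 0 := by
    intro j hj h0
    have := dt_vtx_left (hd j hj.le).ne'
    change dt (V j) (Y j) = 1 at this
    rw [h0] at this
    simp [dt] at this
  set B : Set (ℝ × ℝ) := ⋃ j ∈ Finset.range N, {x | wd x (V j) = 0} with hB
  have hBnull : volume B = 0 := by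
    refine (measure_biUnion_null_iff (Finset.countable_toSet _)).2 ?_
    intro j hj
    exact volume_wd_eq_zero (hV0 j (Finset.mem_range.1 hj))
  set T : ℕ → Set (ℝ × ℝ) := fun j => tri (V j) (V (j + 1)) ∪ tri (- V j) (- V (j + 1)) with hT
  have hsub : {x : ℝ × ℝ | ∀ j < N, |dt x (Y j)| ≤ 1} ⊆ B ∪ ⋃ j ∈ Finset.range N, T j := by
    intro x hx
    by_cases hxB : x ∈ B
    · exact Or.inl hxB
    · right
      have hnz : ∀ j < N, wd x (vtx (Y j) (Y (j + 1))) ≠ 0 := by
        intro j hj h0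
        apply hxB
        simp only [hB, mem_iUnion]
        exact ⟨j, Finset.mem_range.2 hj, h0⟩
      obtain ⟨j, hj, h⟩ := mem_fan hY0 hY1 hd hq hx hnz hN
      simp only [mem_iUnion]
      exact ⟨j, Finset.mem_range.2 hj, h⟩
  have hqf : ∀ j < N, wd (V j) (V (j + 1)) = qf (Y j) (Y (j + 1)) (Y (j + 2)) := fun j hj =>
    wd_vtx (hd j hj.le).ne' (hd (j + 1) hj).ne'
  have hq0 : ∀ j < N, 0 ≤ qf (Y j) (Y (j + 1)) (Y (j + 2)) := by
    intro j hj
    apply div_nonneg
    · linarith [hq j hj]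
    · exact (mul_pos (hd j hj.le) (hd (j + 1) hj)).le
  have hTvol : ∀ j ∈ Finset.range N, volume (T j) ≤
      ENNReal.ofReal (qf (Y j) (Y (j + 1)) (Y (j + 2))) := by
    intro j hj
    have hj' := Finset.mem_range.1 hj
    have e1 : volume (tri (V j) (V (j + 1))) =
        ENNReal.ofReal (qf (Y j) (Y (j + 1)) (Y (j + 2)) / 2) := by
      rw [volume_tri, hqf j hj', abs_of_nonneg (hq0 j hj')]
    have e2 : volume (tri (- V j) (- V (j + 1))) =
        ENNReal.ofReal (qf (Y j) (Y (j + 1)) (Y (j + 2)) / 2) := by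
      rw [volume_tri]
      have : wd (- V j) (- V (j + 1)) = wd (V j) (V (j + 1)) := by simp [wd]
      rw [this, hqf j hj', abs_of_nonneg (hq0 j hj')]
    calc volume (T j) ≤ volume (tri (V j) (V (j + 1))) + volume (tri (- V j) (- V (j + 1))) :=
          measure_union_le _ _
      _ = _ := by
          rw [e1, e2, ← ENNReal.ofReal_add (by have := hq0 j hj'; positivity)
            (by have := hq0 j hj'; positivity)]
          congr 1
          ring
  calc volume {x : ℝ × ℝ | ∀ j < N, |dt x (Y j)| ≤ 1}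
      ≤ volume (B ∪ ⋃ j ∈ Finset.range N, T j) := measure_mono hsub
    _ ≤ volume B + volume (⋃ j ∈ Finset.range N, T j) := measure_union_le _ _
    _ = volume (⋃ j ∈ Finset.range N, T j) := by rw [hBnull, zero_add]
    _ ≤ ∑ j ∈ Finset.range N, volume (T j) := measure_biUnion_finset_le _ _
    _ ≤ ∑ j ∈ Finset.range N, ENNReal.ofReal (qf (Y j) (Y (j + 1)) (Y (j + 2))) :=
        Finset.sum_le_sum hTvol
    _ = _ := by
        rw [ENNReal.ofReal_sum_of_nonneg]
        intro j hj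
        exact hq0 j (Finset.mem_range.1 hj)

end Vale.Agent.Lib.P227G
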