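import Mathlib
import Vale.Agent.Lib.P227G.Barta
import Vale.Agent.Lib.P227G.Fan

/-!
# The area form of a chain with weights
-/

open Finset

namespace Vale.Agent.Lib.P227G

variable {f g : ℕ → ℝ}

/-- The contribution of node `i + 1` to the area when the support numbers are scaled by `W`. -/
noncomputable def scaledQ (f g W : ℕ → ℝ) (i : ℕ) : ℝ :=
  W (i + 1) ^ 2 * nodeQ f g i + edgeC f g (i + 1) * W (i + 1) * (W (i + 2) - W (i + 1))
    + edgeC f g i * W (i + 1) * (W i - W (i + 1))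

/-- Summation by parts for the scaled area form. -/
lemma sum_scaledQ (f g W : ℕ → ℝ) (n : ℕ) :
    ∑ i ∈ range (n + 1), scaledQ f g W i =
      ∑ i ∈ range (n + 1), W (i + 1) ^ 2 * nodeQ f g i
        - ∑ i ∈ range n, edgeC f g (i + 1) * (W (i + 1) - W (i + 2)) ^ 2
        + edgeC f g (n + 1) * W (n + 1) * (W (n + 2) - W (n + 1))
        + edgeC f g 0 * W 1 * (W 0 - W 1) := by
  have h1 : ∀ i, scaledQ f g W i = W (i + 1) ^ 2 * nodeQ f g i
      + edgeC f g (i + 1) * W (i + 1) * (W (i + 2) - W (i + 1))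
      + edgeC f g i * W (i + 1) * (W i - W (i + 1)) := fun _ => rfl
  simp_rw [h1]
  rw [Finset.sum_add_distrib, Finset.sum_add_distrib]
  rw [Finset.sum_range_succ (fun i => edgeC f g (i + 1) * W (i + 1) * (W (i + 2) - W (i + 1))) n,
    Finset.sum_range_succ' (fun i => edgeC f g i * W (i + 1) * (W i - W (i + 1))) n]
  have h2 : ∑ i ∈ range n, edgeC f g (i + 1) * W (i + 1) * (W (i + 2) - W (i + 1))
      + ∑ i ∈ range n, edgeC f g (i + 1) * W (i + 1 + 1) * (W (i + 1) - W (i + 1 + 1))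
      = - ∑ i ∈ range n, edgeC f g (i + 1) * (W (i + 1) - W (i + 2)) ^ 2 := by
    rw [← Finset.sum_add_distrib, ← Finset.sum_neg_distrib]
    exact Finset.sum_congr rfl fun i _ => by ring_nf
  simp only [zero_add] at h2 ⊢
  linarith

/-- The key inequality: the reflected pair has area at most that of the symmetric chain. -/
theorem IsChain.scaled_le {n : ℕ} (h : IsChain (n + 1) f g) {W : ℕ → ℝ}
    (hpos : ∀ j, 1 ≤ j → j ≤ n + 1 → 0 < W j)
    (h0 : W 0 = 1 / W 1) (hl : W (n + 2) = 1 / W (n + 1)) :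
    ∑ i ∈ range (n + 1), scaledQ f g W i + ∑ i ∈ range (n + 1), scaledQ f g (fun j => 1 / W j) i
      ≤ 2 * ∑ i ∈ range (n + 1), nodeQ f g i := by
  have hm : 1 ≤ n + 1 := by omega
  set G : ℕ → ℝ := fun i => (W (i + 1) - 1 / W (i + 1)) / 2 with hG
  have hb := h.barta G
  rw [sum_scaledQ f g W n, sum_scaledQ f g (fun j => 1 / W j) n]
  have p1 := hpos 1 le_rfl (by omega)
  have pn := hpos (n + 1) (by omega) le_rfl
  have c0 := h.edgeC_pos hm (Nat.zero_le _)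
  have cn := h.edgeC_pos hm (le_refl (n + 1))
  simp only [h0, hl]
  -- the end terms
  have e1 : edgeC f g (n + 1) * W (n + 1) * (1 / W (n + 1) - W (n + 1))
      + edgeC f g (n + 1) * (1 / W (n + 1)) * (1 / (1 / W (n + 1)) - 1 / W (n + 1))
      = - (4 * edgeC f g (n + 1) * G n ^ 2) := by
    simp only [hG]
    have := pn.ne'
    field_simp
    ring
  have e0 : edgeC f g 0 * W 1 * (1 / W 1 - W 1)
      + edgeC f g 0 * (1 / W 1) * (1 / (1 / W 1) - 1 / W 1)
      = - (4 * edgeC f g 0 * G 0 ^ 2) := by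
    simp only [hG, zero_add]
    have := p1.ne'
    field_simp
    ring
  -- the node terms
  have e2 : ∑ i ∈ range (n + 1), W (i + 1) ^ 2 * nodeQ f g i
      + ∑ i ∈ range (n + 1), (1 / W (i + 1)) ^ 2 * nodeQ f g i
      = 2 * ∑ i ∈ range (n + 1), nodeQ f g i + 4 * ∑ i ∈ range (n + 1), nodeQ f g i * G i ^ 2 := by
    rw [← Finset.sum_add_distrib, Finset.mul_sum, Finset.mul_sum, ← Finset.sum_add_distrib]
    refine Finset.sum_congr rfl fun i hi => ?_
    have := (hpos (i + 1) (by omega) (by have := Finset.mem_range.1 hi; omega)).ne'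
    simp only [hG]
    field_simp
    ring
  -- the edge terms
  have e3 : ∑ i ∈ range n, 2 * (edgeC f g (i + 1) * (G i - G (i + 1)) ^ 2)
      ≤ ∑ i ∈ range n, edgeC f g (i + 1) * (W (i + 1) - W (i + 2)) ^ 2
        + ∑ i ∈ range n, edgeC f g (i + 1) * (1 / W (i + 1) - 1 / W (i + 2)) ^ 2 := by
    rw [← Finset.sum_add_distrib]
    refine Finset.sum_le_sum fun i hi => ?_
    have hc := h.edgeC_pos hm (show i + 1 ≤ n + 1 by have := Finset.mem_range.1 hi; omega)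
    set a := W (i + 1) - W (i + 2)
    set b := 1 / W (i + 1) - 1 / W (i + 2)
    have : G i - G (i + 1) = (a - b) / 2 := by
      simp only [hG, a, b]
      ring
    rw [this]
    nlinarith [mul_nonneg hc.le (sq_nonneg (a + b))]
  have e3' : 2 * ∑ i ∈ range n, edgeC f g (i + 1) * (G i - G (i + 1)) ^ 2
      ≤ ∑ i ∈ range n, edgeC f g (i + 1) * (W (i + 1) - W (i + 2)) ^ 2
        + ∑ i ∈ range n, edgeC f g (i + 1) * (1 / W (i + 1) - 1 / W (i + 2)) ^ 2 := by
    rw [Finset.mul_sum]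
    exact e3
  have hb2 : 2 * ∑ i ∈ range (n + 1), nodeQ f g i * G i ^ 2 ≤
      ∑ i ∈ range n, edgeC f g (i + 1) * (G i - G (i + 1)) ^ 2
        + 2 * edgeC f g 0 * G 0 ^ 2 + 2 * edgeC f g (n + 1) * G n ^ 2 := hb
  linarith

/-- Scaling the dual vertices by weights. -/
lemma qf_scaled {f0 f1 f2 g0 g1 g2 W0 W1 W2 : ℝ} (h0 : 0 < W0) (h1 : 0 < W1) (h2 : 0 < W2)
    (d0 : f0 * g1 - f1 * g0 ≠ 0) (d1 : f1 * g2 - f2 * g1 ≠ 0) :
    qf (f0 / W0, g0 / W0) (f1 / W1, g1 / W1) (f2 / W2, g2 / W2) =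
      W1 ^ 2 * (1 / (f0 * g1 - f1 * g0) + 1 / (f1 * g2 - f2 * g1)
          - (f0 * g2 - f2 * g0) * (1 / (f0 * g1 - f1 * g0)) * (1 / (f1 * g2 - f2 * g1)))
        + 1 / (f1 * g2 - f2 * g1) * W1 * (W2 - W1)
        + 1 / (f0 * g1 - f1 * g0) * W1 * (W0 - W1) := by
  have e1 : wd (f0 / W0, g0 / W0) (f1 / W1, g1 / W1) = (f0 * g1 - f1 * g0) / (W0 * W1) := by
    simp only [wd]
    field_simp
  have e2 : wd (f1 / W1, g1 / W1) (f2 / W2, g2 / W2) = (f1 * g2 - f2 * g1) / (W1 * W2) := by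
    simp only [wd]
    field_simp
  have e3 : wd (f0 / W0, g0 / W0) (f2 / W2, g2 / W2) = (f0 * g2 - f2 * g0) / (W0 * W2) := by
    simp only [wd]
    field_simp
  simp only [qf]
  rw [e1, e2, e3]
  generalize f0 * g1 - f1 * g0 = A at *
  generalize f1 * g2 - f2 * g1 = B at *
  generalize f0 * g2 - f2 * g0 = C at *
  field_simp
  ring

/-- The same for the reflected antipodal triple. -/
lemma qf_scaled_refl {f0 f1 f2 g0 g1 g2 W0 W1 W2 : ℝ} (h0 : 0 < W0) (h1 : 0 < W1) (h2 : 0 < W2)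
    (d0 : f0 * g1 - f1 * g0 ≠ 0) (d1 : f1 * g2 - f2 * g1 ≠ 0) :
    qf (- f2 * W2, g2 * W2) (- f1 * W1, g1 * W1) (- f0 * W0, g0 * W0) =
      (1 / W1) ^ 2 * (1 / (f0 * g1 - f1 * g0) + 1 / (f1 * g2 - f2 * g1)
          - (f0 * g2 - f2 * g0) * (1 / (f0 * g1 - f1 * g0)) * (1 / (f1 * g2 - f2 * g1)))
        + 1 / (f1 * g2 - f2 * g1) * (1 / W1) * (1 / W2 - 1 / W1)
        + 1 / (f0 * g1 - f1 * g0) * (1 / W1) * (1 / W0 - 1 / W1) := by
  have e1 : wd (- f2 * W2, g2 * W2) (- f1 * W1, g1 * W1) = (f1 * g2 - f2 * g1) * (W1 * W2) := by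
    simp only [wd]
    ring
  have e2 : wd (- f1 * W1, g1 * W1) (- f0 * W0, g0 * W0) = (f0 * g1 - f1 * g0) * (W0 * W1) := by
    simp only [wd]
    ring
  have e3 : wd (- f2 * W2, g2 * W2) (- f0 * W0, g0 * W0) = (f0 * g2 - f2 * g0) * (W0 * W2) := by
    simp only [wd]
    ring
  simp only [qf]
  rw [e1, e2, e3]
  generalize f0 * g1 - f1 * g0 = A at *
  generalize f1 * g2 - f2 * g1 = B at *
  generalize f0 * g2 - f2 * g0 = C at *
  field_simp
  ring

end Vale.Agent.Lib.P227G
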