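import Mathlib
import Vale.Agent.Lib.P227G.ChainSum

/-!
# Upper bound for the area of a convex set circumscribed along a chain
-/

open MeasureTheory Set
open scoped ENNReal

namespace Vale.Agent.Lib.P227G

variable {m n : ℕ} {f g W : ℕ → ℝ}

/-- The dual polygon of the circumscribed polygon, listed along half a turn. -/
noncomputable def Yseq (m : ℕ) (f g W : ℕ → ℝ) (j : ℕ) : ℝ × ℝ :=
  if j ≤ m + 1 then (f j / W j, g j / W j)
  else (- f (2 * m + 1 - j) * W (2 * m + 1 - j), g (2 * m + 1 - j) * W (2 * m + 1 - j))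

lemma Yseq_low {j : ℕ} (hj : j ≤ m + 1) : Yseq m f g W j = (f j / W j, g j / W j) := by
  simp [Yseq, hj]

/-- Weights of a chain: positive at the nodes, with ghost values. -/
structure IsWeight (m : ℕ) (W : ℕ → ℝ) : Prop where
  pos : ∀ j, 1 ≤ j → j ≤ m → 0 < W j
  zero : W 0 = 1 / W 1
  last : W (m + 1) = 1 / W m

lemma IsWeight.pos' (hW : IsWeight m W) (hm : 1 ≤ m) {j : ℕ} (hj : j ≤ m + 1) : 0 < W j := by
  rcases Nat.eq_zero_or_pos j with rfl | h0
  · rw [hW.zero]
    exact one_div_pos.2 (hW.pos 1 le_rfl hm)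
  · rcases Nat.lt_or_ge j (m + 1) with h | h
    · exact hW.pos j h0 (by omega)
    · have : j = m + 1 := by omega
      subst this
      rw [hW.last]
      exact one_div_pos.2 (hW.pos m hm le_rfl)

lemma Yseq_high (hc : IsChain m f g) (hW : IsWeight m W) (hm : 1 ≤ m) {j : ℕ} (hj : m ≤ j)
    (hj' : j ≤ 2 * m + 1) :
    Yseq m f g W j =
      (- f (2 * m + 1 - j) * W (2 * m + 1 - j), g (2 * m + 1 - j) * W (2 * m + 1 - j)) := by
  by_cases h : j ≤ m + 1
  · rw [Yseq_low h]
    have pm := hW.pos m hm le_rfl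
    rcases Nat.lt_or_ge j (m + 1) with h1 | h1
    · have : j = m := by omega
      subst this
      have e : 2 * j + 1 - j = j + 1 := by omega
      rw [e, hc.f_last, hc.g_last, hW.last]
      ext <;> simp <;> field_simp
    · have : j = m + 1 := by omega
      subst this
      have e : 2 * m + 1 - (m + 1) = m := by omega
      rw [e, hc.f_last, hc.g_last, hW.last]
      ext <;> simp <;> field_simp
  · simp [Yseq, h]

lemma Yseq_N (hc : IsChain m f g) (hW : IsWeight m W) (hm : 1 ≤ m) :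
    Yseq m f g W (2 * m) = - Yseq m f g W 0 := by
  rw [Yseq_high hc hW hm (by omega) (by omega), Yseq_low (by omega)]
  have e : 2 * m + 1 - 2 * m = 1 := by omega
  rw [e, hc.f_zero, hc.g_zero, hW.zero]
  have := hW.pos 1 le_rfl hm
  ext <;> simp <;> field_simp

lemma Yseq_N1 (hc : IsChain m f g) (hW : IsWeight m W) (hm : 1 ≤ m) :
    Yseq m f g W (2 * m + 1) = - Yseq m f g W 1 := by
  rw [Yseq_high hc hW hm (by omega) (by omega), Yseq_low (by omega)]
  have e : 2 * m + 1 - (2 * m + 1) = 0 := by omega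
  rw [e, hc.f_zero, hc.g_zero, hW.zero]
  have := hW.pos 1 le_rfl hm
  ext <;> simp <;> field_simp

lemma Yseq_wd_pos (hc : IsChain m f g) (hW : IsWeight m W) (hm : 1 ≤ m) {j : ℕ}
    (hj : j ≤ 2 * m) : 0 < wd (Yseq m f g W j) (Yseq m f g W (j + 1)) := by
  rcases Nat.lt_or_ge j (m + 1) with h | h
  · rw [Yseq_low (by omega), Yseq_low (by omega)]
    have d := hc.delta_pos hm (show j ≤ m by omega)
    have p1 := hW.pos' hm (show j ≤ m + 1 by omega)
    have p2 := hW.pos' hm (show j + 1 ≤ m + 1 by omega)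
    have e : wd (f j / W j, g j / W j) (f (j + 1) / W (j + 1), g (j + 1) / W (j + 1))
        = (f j * g (j + 1) - f (j + 1) * g j) / (W j * W (j + 1)) := by
      simp only [wd]
      field_simp
    rw [e]
    positivity
  · rw [Yseq_high hc hW hm (by omega) (by omega), Yseq_high hc hW hm (by omega) (by omega)]
    obtain ⟨i, rfl⟩ : ∃ i, j = 2 * m - i := ⟨2 * m - j, by omega⟩
    have e1 : 2 * m + 1 - (2 * m - i) = i + 1 := by omega
    have e2 : 2 * m + 1 - (2 * m - i + 1) = i := by omega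
    rw [e1, e2]
    have hi : i ≤ m := by omega
    have d := hc.delta_pos hm hi
    have p1 := hW.pos' hm (show i ≤ m + 1 by omega)
    have p2 := hW.pos' hm (show i + 1 ≤ m + 1 by omega)
    have e : wd (- f (i + 1) * W (i + 1), g (i + 1) * W (i + 1)) (- f i * W i, g i * W i)
        = (f i * g (i + 1) - f (i + 1) * g i) * (W i * W (i + 1)) := by
      simp only [wd]
      ring
    rw [e]
    positivity

/-- The sum of the fan areas of the scaled polygon. -/
lemma sum_qf_Yseq (hc : IsChain (n + 1) f g) (hW : IsWeight (n + 1) W) :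
    ∑ j ∈ Finset.range (2 * (n + 1)),
        qf (Yseq (n + 1) f g W j) (Yseq (n + 1) f g W (j + 1)) (Yseq (n + 1) f g W (j + 2))
      = ∑ i ∈ Finset.range (n + 1), scaledQ f g W i
        + ∑ i ∈ Finset.range (n + 1), scaledQ f g (fun j => 1 / W j) i := by
  have hm : 1 ≤ n + 1 := by omega
  rw [two_mul, Finset.sum_range_add]
  congr 1
  · refine Finset.sum_congr rfl fun i hi => ?_
    have hi' := Finset.mem_range.1 hi
    rw [Yseq_low (by omega), Yseq_low (by omega), Yseq_low (by omega)]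
    rw [qf_scaled (hW.pos' hm (by omega)) (hW.pos' hm (by omega)) (hW.pos' hm (by omega))
      (hc.delta_pos hm (by omega)).ne' (hc.delta_pos hm (by omega)).ne']
    rfl
  · rw [← Finset.sum_range_reflect (fun i => scaledQ f g (fun j => 1 / W j) i)]
    refine Finset.sum_congr rfl fun l hl => ?_
    have hl' := Finset.mem_range.1 hl
    obtain ⟨i, hi⟩ : ∃ i, i = n + 1 - 1 - l := ⟨_, rfl⟩
    rw [← hi]
    have hin : i ≤ n := by omega
    rw [Yseq_high hc hW hm (by omega) (by omega), Yseq_high hc hW hm (by omega) (by omega),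
      Yseq_high hc hW hm (by omega) (by omega)]
    have e1 : 2 * (n + 1) + 1 - (n + 1 + l) = i + 2 := by omega
    have e2 : 2 * (n + 1) + 1 - (n + 1 + l + 1) = i + 1 := by omega
    have e3 : 2 * (n + 1) + 1 - (n + 1 + l + 2) = i := by omega
    rw [e1, e2, e3]
    rw [qf_scaled_refl (hW.pos' hm (by omega)) (hW.pos' hm (by omega)) (hW.pos' hm (by omega))
      (hc.delta_pos hm (by omega)).ne' (hc.delta_pos hm (by omega)).ne']
    rfl

/-- The Cramer identity in the plane. -/
lemma wd_dt_three (a b c x : ℝ × ℝ) :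
    wd a c * dt x b = wd b c * dt x a + wd a b * dt x c := by
  simp only [wd, dt]
  ring

/-- The area of a symmetric convex set is bounded by the area form of the chain. -/
theorem chain_upper (hc : IsChain (n + 1) f g) (hW : IsWeight (n + 1) W) {Q : Set (ℝ × ℝ)}
    (hsym : ∀ x ∈ Q, -x ∈ Q)
    (h1 : ∀ j ≤ 2 * (n + 1) + 1, ∀ x ∈ Q, dt x (Yseq (n + 1) f g W j) ≤ 1)
    (h2 : ∀ j ≤ 2 * (n + 1) + 1, ∃ x ∈ Q, dt x (Yseq (n + 1) f g W j) = 1) :
    volume Q ≤ ENNReal.ofReal (2 * ∑ i ∈ Finset.range (n + 1), nodeQ f g i) := by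
  have hm : 1 ≤ n + 1 := by omega
  set Y := Yseq (n + 1) f g W with hY
  have hsub : Q ⊆ {x : ℝ × ℝ | ∀ j < 2 * (n + 1), |dt x (Y j)| ≤ 1} := by
    intro x hx j hj
    rw [abs_le]
    constructor
    · have := h1 j (by omega) (-x) (hsym x hx)
      have e : dt (-x) (Y j) = - dt x (Y j) := by simp [dt]; ring
      rw [e] at this
      linarith
    · exact h1 j (by omega) x hx
  have hd : ∀ j ≤ 2 * (n + 1), 0 < wd (Y j) (Y (j + 1)) := fun j hj =>
    Yseq_wd_pos hc hW hm hj
  have hq : ∀ j < 2 * (n + 1),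
      wd (Y j) (Y (j + 2)) ≤ wd (Y j) (Y (j + 1)) + wd (Y (j + 1)) (Y (j + 2)) := by
    intro j hj
    obtain ⟨x, hx, hx1⟩ := h2 (j + 1) (by omega)
    have e := wd_dt_three (Y j) (Y (j + 1)) (Y (j + 2)) x
    rw [hx1, mul_one] at e
    rw [e]
    have d0 := hd j (by omega)
    have d1 := hd (j + 1) (by omega)
    have t0 := h1 j (by omega) x hx
    have t2 := h1 (j + 2) (by omega) x hx
    nlinarith
  have hbound := fan_bound (N := 2 * (n + 1)) (by omega) (Y := Y) (Yseq_N hc hW hm)
    (Yseq_N1 hc hW hm) hd hq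
  refine (measure_mono hsub).trans (hbound.trans ?_)
  apply ENNReal.ofReal_le_ofReal
  rw [hY, sum_qf_Yseq hc hW]
  exact hc.scaled_le (fun j h3 h4 => hW.pos j h3 h4) hW.zero hW.last

end Vale.Agent.Lib.P227G
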