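import Mathlib
import Vale.Agent.Lib.P227G.ChainArea

/-!
# Lower bound for the area of the unconditional polygon of a chain
-/

open MeasureTheory Set
open scoped ENNReal

namespace Vale.Agent.Lib.P227G

variable {m n : ℕ} {f g : ℕ → ℝ}

/-- Node vectors. -/
def yv (f g : ℕ → ℝ) (k : ℕ) : ℝ × ℝ := (f k, g k)

/-- The vertices of the polygon. -/
noncomputable def Vv (f g : ℕ → ℝ) (i : ℕ) : ℝ × ℝ := vtx (yv f g i) (yv f g (i + 1))

lemma wd_yv (f g : ℕ → ℝ) (i : ℕ) :
    wd (yv f g i) (yv f g (i + 1)) = f i * g (i + 1) - f (i + 1) * g i := by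
  simp only [wd, yv]; ring

lemma qf_yv (hc : IsChain m f g) (hm : 1 ≤ m) {i : ℕ} (hi : i < m) :
    qf (yv f g i) (yv f g (i + 1)) (yv f g (i + 2)) = nodeQ f g i := by
  have d0 := (hc.delta_pos hm (show i ≤ m by omega)).ne'
  have d1 := (hc.delta_pos hm (show i + 1 ≤ m by omega)).ne'
  have e1 := wd_yv f g i
  have e2 := wd_yv f g (i + 1)
  have e3 : wd (yv f g i) (yv f g (i + 2)) = f i * g (i + 2) - f (i + 2) * g i := by
    simp only [wd, yv]; ring
  simp only [qf, nodeQ, edgeC]
  rw [e1, e2, e3]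
  generalize f i * g (i + 1) - f (i + 1) * g i = A at *
  generalize f (i + 1) * g (i + 1 + 1) - f (i + 1 + 1) * g (i + 1) = B at *
  generalize f i * g (i + 2) - f (i + 2) * g i = C at *
  field_simp
  ring

lemma wd_Vv (hc : IsChain m f g) (hm : 1 ≤ m) {i : ℕ} (hi : i < m) :
    wd (Vv f g i) (Vv f g (i + 1)) = nodeQ f g i := by
  have d0 := hc.delta_pos hm (show i ≤ m by omega)
  have d1 := hc.delta_pos hm (show i + 1 ≤ m by omega)
  rw [← wd_yv] at d0 d1
  exact (wd_vtx d0.ne' d1.ne').trans (qf_yv hc hm hi)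

lemma Vv_fst_nonneg (hc : IsChain m f g) (hm : 1 ≤ m) {i : ℕ} (hi : i ≤ m) : 0 ≤ (Vv f g i).1 := by
  have d0 := hc.delta_pos hm hi
  have : (Vv f g i).1 = (g (i + 1) - g i) / (f i * g (i + 1) - f (i + 1) * g i) := by
    simp only [Vv, vtx, wd_yv]; rfl
  rw [this]
  apply div_nonneg _ d0.le
  rcases Nat.eq_zero_or_pos i with rfl | h0
  · have := hc.g_pos 1 le_rfl hm
    rw [hc.g_zero]
    simp only [zero_add]
    linarith
  · rcases Nat.lt_or_ge i m with h | h
    · linarith [hc.g_mono i h0 h]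
    · have : i = m := le_antisymm hi h
      subst this
      rw [hc.g_last]
      simp

lemma Vv_snd_nonneg (hc : IsChain m f g) (hm : 1 ≤ m) {i : ℕ} (hi : i ≤ m) : 0 ≤ (Vv f g i).2 := by
  have d0 := hc.delta_pos hm hi
  have : (Vv f g i).2 = (f i - f (i + 1)) / (f i * g (i + 1) - f (i + 1) * g i) := by
    simp only [Vv, vtx, wd_yv]; rfl
  rw [this]
  apply div_nonneg _ d0.le
  rcases Nat.eq_zero_or_pos i with rfl | h0
  · rw [hc.f_zero]
    simp
  · rcases Nat.lt_or_ge i m with h | h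
    · linarith [hc.f_anti i h0 h]
    · have : i = m := le_antisymm hi h
      subst this
      rw [hc.f_last]
      have := hc.f_pos i h0 le_rfl
      linarith

lemma dt_Vv_left (hc : IsChain m f g) (hm : 1 ≤ m) {i : ℕ} (hi : i ≤ m) :
    dt (Vv f g i) (yv f g i) = 1 := by
  have d0 := hc.delta_pos hm hi
  rw [← wd_yv] at d0
  exact dt_vtx_left d0.ne'

lemma dt_Vv_right (hc : IsChain m f g) (hm : 1 ≤ m) {i : ℕ} (hi : i ≤ m) :
    dt (Vv f g i) (yv f g (i + 1)) = 1 := by
  have d0 := hc.delta_pos hm hi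
  rw [← wd_yv] at d0
  exact dt_vtx_right d0.ne'

/-- The eigenvalue relation for a linear form. -/
lemma hill_form (hc : IsChain m f g) (hm : 1 ≤ m) {k : ℕ} (hk : k < m) (α β : ℝ) :
    edgeC f g (k + 1) * ((α * f (k + 2) + β * g (k + 2)) - (α * f (k + 1) + β * g (k + 1)))
      + edgeC f g k * ((α * f k + β * g k) - (α * f (k + 1) + β * g (k + 1)))
      = - nodeQ f g k * (α * f (k + 1) + β * g (k + 1)) := by
  have h1 := hc.hill_f hm hk
  have h2 := hc.hill_g hm hk
  linear_combination α * h1 + β * h2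

/-- A form equal to one on two consecutive nodes is at most one on all the nodes. -/
lemma form_le_one (hc : IsChain m f g) (hm : 1 ≤ m) (hq : ∀ i < m, 0 ≤ nodeQ f g i)
    {α β : ℝ} (hα : 0 ≤ α) (hβ : 0 ≤ β) {i : ℕ} (hi : i ≤ m)
    (h0 : α * f i + β * g i = 1) (h1 : α * f (i + 1) + β * g (i + 1) = 1) :
    ∀ k, 1 ≤ k → k ≤ m → α * f k + β * g k ≤ 1 := by
  set φ : ℕ → ℝ := fun k => α * f k + β * g k with hφ
  have φnn : ∀ k, 1 ≤ k → k ≤ m → 0 ≤ φ k := fun k h2 h3 =>
    add_nonneg (mul_nonneg hα (hc.f_pos k h2 h3).le) (mul_nonneg hβ (hc.g_pos k h2 h3).le)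
  have hill : ∀ k, k < m → edgeC f g (k + 1) * (φ (k + 2) - φ (k + 1))
      + edgeC f g k * (φ k - φ (k + 1)) = - nodeQ f g k * φ (k + 1) := fun k hk =>
    hill_form hc hm hk α β
  have fwd : ∀ l, i + l ≤ m → φ (i + l + 1) ≤ φ (i + l) := by
    intro l
    induction l with
    | zero =>
      intro _
      simp only [add_zero]
      exact (h1.trans h0.symm).le
    | succ l ih =>
      intro hl
      have h2 := ih (by omega)
      have e := hill (i + l) (by omega)
      have c1 := hc.edgeC_pos hm (show i + l + 1 ≤ m by omega)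
      have c0 := hc.edgeC_pos hm (show i + l ≤ m by omega)
      have p := φnn (i + l + 1) (by omega) (by omega)
      have q := hq (i + l) (by omega)
      have t : edgeC f g (i + l + 1) * (φ (i + l + 2) - φ (i + l + 1)) ≤ 0 := by
        nlinarith [mul_nonneg q p, mul_nonneg c0.le (sub_nonneg.2 h2)]
      have : φ (i + l + 2) - φ (i + l + 1) ≤ 0 := by
        by_contra hcon
        push Not at hcon
        nlinarith [mul_pos c1 hcon]
      have e2 : i + (l + 1) + 1 = i + l + 2 := by omega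
      have e3 : i + (l + 1) = i + l + 1 := by omega
      rw [e2, e3]
      linarith
  have bwd : ∀ l, l ≤ i → φ (i - l) ≤ φ (i - l + 1) := by
    intro l
    induction l with
    | zero =>
      intro _
      simp only [Nat.sub_zero]
      exact (h0.trans h1.symm).le
    | succ l ih =>
      intro hl
      have h2 := ih (by omega)
      obtain ⟨k, hk⟩ : ∃ k, k = i - (l + 1) := ⟨_, rfl⟩
      have e1 : i - l = k + 1 := by omega
      rw [← hk]
      rw [e1] at h2
      have e := hill k (by omega)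
      have c1 := hc.edgeC_pos hm (show k + 1 ≤ m by omega)
      have c0 := hc.edgeC_pos hm (show k ≤ m by omega)
      have p := φnn (k + 1) (by omega) (by omega)
      have q := hq k (by omega)
      have t : edgeC f g k * (φ k - φ (k + 1)) ≤ 0 := by
        nlinarith [mul_nonneg q p, mul_nonneg c1.le (sub_nonneg.2 h2)]
      by_contra hcon
      push Not at hcon
      nlinarith [mul_pos c0 (sub_pos.2 hcon)]
  intro k hk1 hk2
  change φ k ≤ 1
  rcases Nat.lt_or_ge i k with h | h
  · -- forward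
    have key : ∀ l, i + l + 1 ≤ m + 1 → φ (i + l + 1) ≤ 1 := by
      intro l
      induction l with
      | zero =>
        intro _
        exact (h1).le
      | succ l ih =>
        intro hl
        have := fwd (l + 1) (by omega)
        have h3 := ih (by omega)
        have e : i + (l + 1) = i + l + 1 := by omega
        rw [e] at this ⊢
        linarith
    have := key (k - i - 1) (by omega)
    have e : i + (k - i - 1) + 1 = k := by omega
    rwa [e] at this
  · have key : ∀ l, l ≤ i → φ (i - l) ≤ 1 := by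
      intro l
      induction l with
      | zero =>
        intro _
        exact (h0).le
      | succ l ih =>
        intro hl
        have := bwd (l + 1) hl
        have h3 := ih (by omega)
        have e : i - (l + 1) + 1 = i - l := by omega
        rw [e] at this
        linarith
    have := key (i - k) (by omega)
    have e : i - (i - k) = k := by omega
    rwa [e] at this

/-- The unconditional polygon of a chain. -/
def chainPoly (m : ℕ) (f g : ℕ → ℝ) : Set (ℝ × ℝ) :=
  {z | ∀ k, 1 ≤ k → k ≤ m → |z.1| * f k + |z.2| * g k ≤ 1}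

lemma measurableSet_chainPoly (m : ℕ) (f g : ℕ → ℝ) : MeasurableSet (chainPoly m f g) := by
  have : chainPoly m f g = ⋂ k, ⋂ (_ : 1 ≤ k), ⋂ (_ : k ≤ m),
      {z : ℝ × ℝ | |z.1| * f k + |z.2| * g k ≤ 1} := by
    ext z
    simp [chainPoly]
  rw [this]
  refine MeasurableSet.iInter fun k => MeasurableSet.iInter fun _ => MeasurableSet.iInter fun _ => ?_
  have hc : Continuous fun z : ℝ × ℝ => |z.1| * f k + |z.2| * g k := by fun_prop
  exact (isClosed_le hc continuous_const).measurableSet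

lemma Vv_ne (hc : IsChain m f g) (hm : 1 ≤ m) {i : ℕ} (hi : i ≤ m) : Vv f g i ≠ 0 := by
  intro h
  have := dt_Vv_left hc hm hi
  rw [h] at this
  simp [dt] at this

lemma Vv_sum_pos (hc : IsChain m f g) (hm : 1 ≤ m) {i : ℕ} (hi : i ≤ m) :
    0 < (Vv f g i).1 + (Vv f g i).2 := by
  have h1 := Vv_fst_nonneg hc hm hi
  have h2 := Vv_snd_nonneg hc hm hi
  rcases (add_nonneg h1 h2).lt_or_eq with h | h
  · exact h
  · exfalso
    apply Vv_ne hc hm hi
    ext
    · simp only [Prod.fst_zero]; linarith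
    · simp only [Prod.snd_zero]; linarith

/-- Transitivity of the angular order on the closed quadrant. -/
lemma wd_trans_mul (a b c : ℝ × ℝ) :
    (b.1 + b.2) * wd a c = (a.1 + a.2) * wd b c + (c.1 + c.2) * wd a b := by
  simp only [wd]
  ring

lemma wd_Vv_mono (hc : IsChain m f g) (hm : 1 ≤ m) (hq : ∀ i < m, 0 ≤ nodeQ f g i)
    {i : ℕ} (hi : i ≤ m) : ∀ l, i + l ≤ m → 0 ≤ wd (Vv f g i) (Vv f g (i + l)) := by
  intro l
  induction l with
  | zero =>
    intro _
    simp [wd]
    ring_nf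
    simp
  | succ l ih =>
    intro hl
    have h1 := ih (by omega)
    have h2 : 0 ≤ wd (Vv f g (i + l)) (Vv f g (i + l + 1)) := by
      rw [wd_Vv hc hm (by omega)]
      exact hq _ (by omega)
    have e := wd_trans_mul (Vv f g i) (Vv f g (i + l)) (Vv f g (i + l + 1))
    have p := Vv_sum_pos hc hm (show i + l ≤ m by omega)
    have p1 := Vv_sum_pos hc hm hi
    have p2 := Vv_sum_pos hc hm (show i + l + 1 ≤ m by omega)
    have : 0 ≤ (Vv f g (i + l)).1 + (Vv f g (i + l)).2 := p.le
    have t : 0 ≤ ((Vv f g (i + l)).1 + (Vv f g (i + l)).2) * wd (Vv f g i) (Vv f g (i + l + 1)) := by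
      rw [e]
      have : wd (Vv f g (i + l)) (Vv f g (i + l + 1)) * ((Vv f g i).1 + (Vv f g i).2) ≥ 0 :=
        mul_nonneg h2 p1.le
      have : wd (Vv f g i) (Vv f g (i + l)) * ((Vv f g (i + l + 1)).1 + (Vv f g (i + l + 1)).2) ≥ 0 :=
        mul_nonneg h1 p2.le
      nlinarith
    have e2 : i + (l + 1) = i + l + 1 := by omega
    rw [e2]
    exact nonneg_of_mul_nonneg_right t p

/-- The piece of the triangle number `i` away from the lines. -/
def triPiece (f g : ℕ → ℝ) (i : ℕ) : Set (ℝ × ℝ) :=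
  tri (Vv f g i) (Vv f g (i + 1)) \ ({z | wd z (Vv f g i) = 0} ∪ {z | wd z ((1:ℝ), (0:ℝ)) = 0}
    ∪ {z | wd z ((0:ℝ), (1:ℝ)) = 0})

lemma continuous_wd_left (V : ℝ × ℝ) : Continuous fun z : ℝ × ℝ => wd z V := by
  unfold wd
  fun_prop

lemma measurableSet_triPiece (f g : ℕ → ℝ) (i : ℕ) : MeasurableSet (triPiece f g i) := by
  refine (measurableSet_tri _ _).diff ?_
  refine MeasurableSet.union (MeasurableSet.union ?_ ?_) ?_ <;>
  exact (isClosed_eq (continuous_wd_left _) continuous_const).measurableSet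

lemma volume_triPiece (hc : IsChain m f g) (hm : 1 ≤ m) (hq : ∀ i < m, 0 ≤ nodeQ f g i)
    {i : ℕ} (hi : i < m) :
    volume (triPiece f g i) = ENNReal.ofReal (nodeQ f g i / 2) := by
  have hnull : volume ({z : ℝ × ℝ | wd z (Vv f g i) = 0} ∪ {z | wd z ((1:ℝ), (0:ℝ)) = 0}
      ∪ {z | wd z ((0:ℝ), (1:ℝ)) = 0}) = 0 := by
    refine measure_union_null (measure_union_null ?_ ?_) ?_
    · exact volume_wd_eq_zero (Vv_ne hc hm hi.le)
    · exact volume_wd_eq_zero (by simp)
    · exact volume_wd_eq_zero (by simp)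
  rw [triPiece, measure_diff_null hnull, volume_tri, wd_Vv hc hm hi, abs_of_nonneg (hq i hi)]

/-- Description of the points of a piece. -/
lemma triPiece_props (hc : IsChain m f g) (hm : 1 ≤ m) (hq : ∀ i < m, 0 ≤ nodeQ f g i)
    {i : ℕ} (hi : i < m) {z : ℝ × ℝ} (hz : z ∈ triPiece f g i) :
    0 < z.1 ∧ 0 < z.2 ∧ 0 < wd (Vv f g i) z ∧ 0 ≤ wd z (Vv f g (i + 1)) ∧
      ∀ k, 1 ≤ k → k ≤ m → z.1 * f k + z.2 * g k ≤ 1 := by
  obtain ⟨⟨s, t, hs, ht, hst, rfl⟩, hz2⟩ := hz
  simp only [mem_union, mem_ofPred_eq, not_or] at hz2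
  obtain ⟨⟨hz3, hz4⟩, hz5⟩ := hz2
  have a1 := Vv_fst_nonneg hc hm hi.le
  have a2 := Vv_snd_nonneg hc hm hi.le
  have b1 := Vv_fst_nonneg hc hm (show i + 1 ≤ m by omega)
  have b2 := Vv_snd_nonneg hc hm (show i + 1 ≤ m by omega)
  have hw := wd_Vv hc hm hi
  have hq0 := hq i hi
  set A := Vv f g i with hA
  set B := Vv f g (i + 1) with hB
  refine ⟨?_, ?_, ?_, ?_, ?_⟩
  · have h1 : 0 ≤ s * A.1 + t * B.1 := add_nonneg (mul_nonneg hs a1) (mul_nonneg ht b1)
    refine lt_of_le_of_ne h1 (Ne.symm ?_)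
    intro h0
    apply hz5
    simp only at h0
    simp only [wd]
    rw [h0]
    ring
  · have h1 : 0 ≤ s * A.2 + t * B.2 := add_nonneg (mul_nonneg hs a2) (mul_nonneg ht b2)
    refine lt_of_le_of_ne h1 (Ne.symm ?_)
    intro h0
    apply hz4
    simp only at h0
    simp only [wd]
    rw [h0]
    ring
  · have e : wd A (s * A.1 + t * B.1, s * A.2 + t * B.2) = t * wd A B := by
      simp only [wd]; ring
    have e' : wd (s * A.1 + t * B.1, s * A.2 + t * B.2) A = - (t * wd A B) := by
      simp only [wd]; ring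
    rw [e]
    rw [e'] at hz3
    have h3 : 0 ≤ t * wd A B := mul_nonneg ht (by rw [hw]; exact hq0)
    refine lt_of_le_of_ne h3 (Ne.symm ?_)
    intro h0
    apply hz3
    rw [h0]
    simp
  · have e : wd (s * A.1 + t * B.1, s * A.2 + t * B.2) B = s * wd A B := by
      simp only [wd]; ring
    rw [e]
    exact mul_nonneg hs (by rw [hw]; exact hq0)
  · intro k h1 h2
    have f1 := form_le_one hc hm hq a1 a2 hi.le (dt_Vv_left hc hm hi.le) (dt_Vv_right hc hm hi.le)
      k h1 h2
    have f2 := form_le_one hc hm hq b1 b2 (show i + 1 ≤ m by omega)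
      (dt_Vv_left hc hm (show i + 1 ≤ m by omega)) (dt_Vv_right hc hm (show i + 1 ≤ m by omega))
      k h1 h2
    simp only
    have : (s * A.1 + t * B.1) * f k + (s * A.2 + t * B.2) * g k
        = s * (A.1 * f k + A.2 * g k) + t * (B.1 * f k + B.2 * g k) := by ring
    rw [this]
    nlinarith

lemma triPiece_disjoint (hc : IsChain m f g) (hm : 1 ≤ m) (hq : ∀ i < m, 0 ≤ nodeQ f g i)
    {i j : ℕ} (hij : i < j) (hj : j < m) : Disjoint (triPiece f g i) (triPiece f g j) := by
  rw [Set.disjoint_left]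
  intro z hzi hzj
  obtain ⟨p1, p2, _, h2, _⟩ := triPiece_props hc hm hq (hij.trans hj) hzi
  obtain ⟨_, _, h3, _, _⟩ := triPiece_props hc hm hq hj hzj
  have hm1 := wd_Vv_mono hc hm hq (show i + 1 ≤ m by omega) (j - (i + 1)) (by omega)
  have e : i + 1 + (j - (i + 1)) = j := by omega
  rw [e] at hm1
  have e2 := wd_trans_mul z (Vv f g (i + 1)) (Vv f g j)
  have b := Vv_sum_pos hc hm (show i + 1 ≤ m by omega)
  have c := Vv_sum_pos hc hm hj.le
  have t1 : 0 ≤ (z.1 + z.2) * wd (Vv f g (i + 1)) (Vv f g j) :=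
    mul_nonneg (add_pos p1 p2).le hm1
  have t2 : 0 ≤ ((Vv f g j).1 + (Vv f g j).2) * wd z (Vv f g (i + 1)) :=
    mul_nonneg c.le h2
  have t3 : 0 ≤ ((Vv f g (i + 1)).1 + (Vv f g (i + 1)).2) * wd z (Vv f g j) := by
    rw [e2]; linarith
  have t4 := nonneg_of_mul_nonneg_right t3 b
  have e3 : wd z (Vv f g j) = - wd (Vv f g j) z := by
    simp only [wd]; ring
  rw [e3] at t4
  linarith

/-- The part of the polygon in the open quadrant. -/
def chainQuad (m : ℕ) (f g : ℕ → ℝ) : Set (ℝ × ℝ) :=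
  chainPoly m f g ∩ {z | 0 < z.1 ∧ 0 < z.2}

lemma measurableSet_quadrant : MeasurableSet {z : ℝ × ℝ | 0 < z.1 ∧ 0 < z.2} := by
  have h : IsOpen {z : ℝ × ℝ | 0 < z.1 ∧ 0 < z.2} :=
    (isOpen_lt continuous_const continuous_fst).inter (isOpen_lt continuous_const continuous_snd)
  exact h.measurableSet

lemma measurableSet_chainQuad (m : ℕ) (f g : ℕ → ℝ) : MeasurableSet (chainQuad m f g) :=
  (measurableSet_chainPoly m f g).inter measurableSet_quadrant

lemma chainQuad_lower (hc : IsChain m f g) (hm : 1 ≤ m) (hq : ∀ i < m, 0 ≤ nodeQ f g i) :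
    ENNReal.ofReal ((∑ i ∈ Finset.range m, nodeQ f g i) / 2) ≤ volume (chainQuad m f g) := by
  have hsub : (⋃ i ∈ Finset.range m, triPiece f g i) ⊆ chainQuad m f g := by
    intro z hz
    simp only [mem_iUnion, Finset.mem_range] at hz
    obtain ⟨i, hi, hz⟩ := hz
    obtain ⟨p1, p2, _, _, h⟩ := triPiece_props hc hm hq hi hz
    refine ⟨?_, p1, p2⟩
    intro k h1 h2
    rw [abs_of_pos p1, abs_of_pos p2]
    exact h k h1 h2
  refine le_trans (le_of_eq ?_) (measure_mono hsub)
  rw [measure_biUnion_finset]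
  · rw [Finset.sum_div, ENNReal.ofReal_sum_of_nonneg]
    · refine Finset.sum_congr rfl fun i hi => ?_
      rw [volume_triPiece hc hm hq (Finset.mem_range.1 hi)]
    · intro i hi
      have := hq i (Finset.mem_range.1 hi)
      positivity
  · intro i hi j hj hij
    simp only [Finset.coe_range, mem_Iio] at hi hj
    rcases lt_or_gt_of_ne hij with h | h
    · exact triPiece_disjoint hc hm hq h hj
    · exact (triPiece_disjoint hc hm hq h hi).symm
  · intro i _
    exact measurableSet_triPiece f g i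

/-- A set of the plane, invariant under the coordinate reflections, has four times the area
of its part in the open quadrant. -/
lemma four_quadrants {C : Set (ℝ × ℝ)} (hC : MeasurableSet C)
    (h1 : ∀ z ∈ C, ((-z.1, z.2) : ℝ × ℝ) ∈ C) (h2 : ∀ z ∈ C, ((z.1, -z.2) : ℝ × ℝ) ∈ C) :
    4 * volume (C ∩ {z : ℝ × ℝ | 0 < z.1 ∧ 0 < z.2}) ≤ volume C := by
  set D := C ∩ {z : ℝ × ℝ | 0 < z.1 ∧ 0 < z.2} with hD
  have hDm : MeasurableSet D := hC.inter measurableSet_quadrant
  have mp1 : MeasurePreserving (Prod.map (Neg.neg : ℝ → ℝ) (id : ℝ → ℝ))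
      (volume : Measure (ℝ × ℝ)) volume :=
    (Measure.measurePreserving_neg (volume : Measure ℝ)).prod (MeasurePreserving.id volume)
  have mp2 : MeasurePreserving (Prod.map (id : ℝ → ℝ) (Neg.neg : ℝ → ℝ))
      (volume : Measure (ℝ × ℝ)) volume :=
    (MeasurePreserving.id volume).prod (Measure.measurePreserving_neg (volume : Measure ℝ))
  have mp3 : MeasurePreserving (Prod.map (Neg.neg : ℝ → ℝ) (Neg.neg : ℝ → ℝ))
      (volume : Measure (ℝ × ℝ)) volume :=
    (Measure.measurePreserving_neg (volume : Measure ℝ)).prod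
      (Measure.measurePreserving_neg (volume : Measure ℝ))
  set D1 := Prod.map (Neg.neg : ℝ → ℝ) (id : ℝ → ℝ) ⁻¹' D with hD1
  set D2 := Prod.map (id : ℝ → ℝ) (Neg.neg : ℝ → ℝ) ⁻¹' D with hD2
  set D3 := Prod.map (Neg.neg : ℝ → ℝ) (Neg.neg : ℝ → ℝ) ⁻¹' D with hD3
  have v1 : volume D1 = volume D := mp1.measure_preimage hDm.nullMeasurableSet
  have v2 : volume D2 = volume D := mp2.measure_preimage hDm.nullMeasurableSet
  have v3 : volume D3 = volume D := mp3.measure_preimage hDm.nullMeasurableSet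
  have m1 : MeasurableSet D1 := mp1.measurable hDm
  have m2 : MeasurableSet D2 := mp2.measurable hDm
  have m3 : MeasurableSet D3 := mp3.measurable hDm
  have mem1 : ∀ z, z ∈ D1 → z ∈ C ∧ z.1 < 0 ∧ 0 < z.2 := by
    rintro ⟨a, b⟩ ⟨hz, h3, h4⟩
    simp only [Prod.map_apply, id] at hz h3 h4
    have := h1 _ hz
    simp only [neg_neg] at this
    exact ⟨this, by simpa using h3, h4⟩
  have mem2 : ∀ z, z ∈ D2 → z ∈ C ∧ 0 < z.1 ∧ z.2 < 0 := by
    rintro ⟨a, b⟩ ⟨hz, h3, h4⟩
    simp only [Prod.map_apply, id] at hz h3 h4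
    have := h2 _ hz
    simp only [neg_neg] at this
    exact ⟨this, h3, by simpa using h4⟩
  have mem3 : ∀ z, z ∈ D3 → z ∈ C ∧ z.1 < 0 ∧ z.2 < 0 := by
    rintro ⟨a, b⟩ ⟨hz, h3, h4⟩
    simp only [Prod.map_apply] at hz h3 h4
    have := h2 _ (h1 _ hz)
    simp only [neg_neg] at this
    exact ⟨this, by simpa using h3, by simpa using h4⟩
  have d01 : Disjoint D D1 := by
    rw [Set.disjoint_left]
    intro z hz hz1
    have := (mem1 z hz1).2.1
    have := hz.2.1
    linarith
  have d012 : Disjoint (D ∪ D1) D2 := by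
    rw [Set.disjoint_left]
    rintro z (hz | hz) hz2
    · have := (mem2 z hz2).2.2
      have := hz.2.2
      linarith
    · have := (mem2 z hz2).2.1
      have := (mem1 z hz).2.1
      linarith
  have d0123 : Disjoint (D ∪ D1 ∪ D2) D3 := by
    rw [Set.disjoint_left]
    rintro z ((hz | hz) | hz) hz3
    · have := (mem3 z hz3).2.1
      have := hz.2.1
      linarith
    · have := (mem3 z hz3).2.2
      have := (mem1 z hz).2.2
      linarith
    · have := (mem3 z hz3).2.1
      have := (mem2 z hz).2.1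
      linarith
  have hsub : D ∪ D1 ∪ D2 ∪ D3 ⊆ C := by
    rintro z (((hz | hz) | hz) | hz)
    · exact hz.1
    · exact (mem1 z hz).1
    · exact (mem2 z hz).1
    · exact (mem3 z hz).1
  refine le_trans (le_of_eq ?_) (measure_mono hsub)
  rw [measure_union d0123 m3, measure_union d012 m2, measure_union d01 m1, v1, v2, v3]
  ring

/-- The lower bound for the area of the polygon of a chain. -/
theorem chain_lower (hc : IsChain m f g) (hm : 1 ≤ m) (hq : ∀ i < m, 0 ≤ nodeQ f g i) :
    ENNReal.ofReal (2 * ∑ i ∈ Finset.range m, nodeQ f g i) ≤ volume (chainPoly m f g) := by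
  have h1 := chainQuad_lower hc hm hq
  have h2 := four_quadrants (C := chainPoly m f g) (measurableSet_chainPoly m f g)
    (by
      intro z hz k h1 h2
      simpa using hz k h1 h2)
    (by
      intro z hz k h1 h2
      simpa using hz k h1 h2)
  refine le_trans ?_ h2
  have h3 : ENNReal.ofReal (2 * ∑ i ∈ Finset.range m, nodeQ f g i)
      = 4 * ENNReal.ofReal ((∑ i ∈ Finset.range m, nodeQ f g i) / 2) := by
    rw [show (4 : ℝ≥0∞) = ENNReal.ofReal 4 by simp, ← ENNReal.ofReal_mul (by norm_num)]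
    congr 1
    ring
  rw [h3]
  exact mul_le_mul_right h1 4 

end Vale.Agent.Lib.P227G
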