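import Mathlib
import Vale.Agent.Lib.P227G.ChainLower

/-!
# The finite reflection inequality along a chain without redundant nodes
-/

open MeasureTheory Set
open scoped ENNReal

namespace Vale.Agent.Lib.P227G

/-- A dual vector touching the set `Q`. -/
def Cont (Q : Set (ℝ × ℝ)) (y : ℝ × ℝ) : Prop :=
  (∀ x ∈ Q, dt x y ≤ 1) ∧ ∃ x ∈ Q, dt x y = 1

lemma Cont.neg {Q : Set (ℝ × ℝ)} (hsym : ∀ x ∈ Q, -x ∈ Q) {y : ℝ × ℝ} (h : Cont Q y) :
    Cont Q (-y) := by
  have e : ∀ x : ℝ × ℝ, dt x (-y) = dt (-x) y := by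
    intro x
    simp only [dt, Prod.fst_neg, Prod.snd_neg]
    ring
  constructor
  · intro x hx
    rw [e]
    exact h.1 _ (hsym x hx)
  · obtain ⟨x, hx, h1⟩ := h.2
    refine ⟨-x, hsym x hx, ?_⟩
    rw [e, neg_neg]
    exact h1

/-- Ghost extension of the first coordinate. -/
noncomputable def gf (m : ℕ) (u : ℕ → ℝ) (i : ℕ) : ℝ :=
  if i = 0 then u 1 else if i = m + 1 then - u m else u i

/-- Ghost extension of the second coordinate. -/
noncomputable def gg (m : ℕ) (u : ℕ → ℝ) (i : ℕ) : ℝ :=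
  if i = 0 then - u 1 else if i = m + 1 then u m else u i

/-- Ghost extension of the weights. -/
noncomputable def gw (m : ℕ) (u : ℕ → ℝ) (i : ℕ) : ℝ :=
  if i = 0 then 1 / u 1 else if i = m + 1 then 1 / u m else u i

lemma gf_mid {m : ℕ} (u : ℕ → ℝ) {i : ℕ} (h1 : 1 ≤ i) (h2 : i ≤ m) : gf m u i = u i := by
  simp only [gf]
  rw [if_neg (by omega), if_neg (by omega)]

lemma gg_mid {m : ℕ} (u : ℕ → ℝ) {i : ℕ} (h1 : 1 ≤ i) (h2 : i ≤ m) : gg m u i = u i := by
  simp only [gg]
  rw [if_neg (by omega), if_neg (by omega)]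

lemma gw_mid {m : ℕ} (u : ℕ → ℝ) {i : ℕ} (h1 : 1 ≤ i) (h2 : i ≤ m) : gw m u i = u i := by
  simp only [gw]
  rw [if_neg (by omega), if_neg (by omega)]

lemma gf_zero (m : ℕ) (u : ℕ → ℝ) : gf m u 0 = u 1 := by simp [gf]
lemma gg_zero (m : ℕ) (u : ℕ → ℝ) : gg m u 0 = - u 1 := by simp [gg]
lemma gw_zero (m : ℕ) (u : ℕ → ℝ) : gw m u 0 = 1 / u 1 := by simp [gw]
lemma gf_last' (m : ℕ) (u : ℕ → ℝ) : gf m u (m + 1) = - u m := by simp [gf]
lemma gg_last' (m : ℕ) (u : ℕ → ℝ) : gg m u (m + 1) = u m := by simp [gg]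
lemma gw_last' (m : ℕ) (u : ℕ → ℝ) : gw m u (m + 1) = 1 / u m := by simp [gw]

lemma div_one_div' (x y : ℝ) : x / (1 / y) = x * y := by
  rw [one_div, div_inv_eq_mul]

/-- The sign of the node weight. -/
lemma nodeQ_eq {f g : ℕ → ℝ} {i : ℕ} (d0 : f i * g (i + 1) - f (i + 1) * g i ≠ 0)
    (d1 : f (i + 1) * g (i + 2) - f (i + 2) * g (i + 1) ≠ 0) :
    nodeQ f g i = ((f i * g (i + 1) - f (i + 1) * g i) + (f (i + 1) * g (i + 2) - f (i + 2) * g (i + 1))
      - (f i * g (i + 2) - f (i + 2) * g i))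
        / ((f i * g (i + 1) - f (i + 1) * g i) * (f (i + 1) * g (i + 2) - f (i + 2) * g (i + 1))) := by
  simp only [nodeQ, edgeC]
  generalize f i * g (i + 1) - f (i + 1) * g i = A at *
  generalize f (i + 1) * g (i + 1 + 1) - f (i + 1 + 1) * g (i + 1) = B at *
  generalize f i * g (i + 2) - f (i + 2) * g i = C at *
  field_simp
  ring

/-- Data of a chain before the ghost nodes are added. -/
structure PreChain (Q : Set (ℝ × ℝ)) (m : ℕ) (kap a b F : ℕ → ℝ) : Prop where
  kap_pos : ∀ i, 1 ≤ i → i ≤ m → 0 < kap i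
  kap_lt : ∀ i, 1 ≤ i → i < m → kap i < kap (i + 1)
  a_pos : ∀ i, 1 ≤ i → i ≤ m → 0 < a i
  b_pos : ∀ i, 1 ≤ i → i ≤ m → 0 < b i
  F_pos : ∀ i, 1 ≤ i → i ≤ m → 0 < F i
  F_sq : ∀ i, 1 ≤ i → i ≤ m → F i ^ 2 = a i * b i
  contA : ∀ i, 1 ≤ i → i ≤ m → Cont Q (1 / a i, kap i / a i)
  contB : ∀ i, 1 ≤ i → i ≤ m → Cont Q (1 / b i, - kap i / b i)
  nonred : ∀ k, 1 ≤ k → k ≤ m → ¬ ∀ z : ℝ × ℝ,
    (∀ j, 1 ≤ j → j ≤ m → j ≠ k → |z.1| * (1 / F j) + |z.2| * (kap j / F j) ≤ 1) →
      |z.1| * (1 / F k) + |z.2| * (kap k / F k) ≤ 1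

variable {Q : Set (ℝ × ℝ)} {m : ℕ} {kap a b F : ℕ → ℝ}

lemma PreChain.anti (h : PreChain Q m kap a b F) {i : ℕ} (h1 : 1 ≤ i) (h2 : i < m) :
    1 / F (i + 1) < 1 / F i := by
  by_contra hcon
  push Not at hcon
  apply h.nonred i h1 h2.le
  intro z hz
  have hz1 := hz (i + 1) (by omega) (by omega) (by omega)
  have k0 := h.kap_pos i h1 h2.le
  have kl := h.kap_lt i h1 h2
  have p0 : 0 < 1 / F i := one_div_pos.2 (h.F_pos i h1 h2.le)
  have p1 : 0 < 1 / F (i + 1) := one_div_pos.2 (h.F_pos (i + 1) (by omega) (by omega))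
  have e0 : kap i / F i = kap i * (1 / F i) := by ring
  have e1 : kap (i + 1) / F (i + 1) = kap (i + 1) * (1 / F (i + 1)) := by ring
  have hg : kap i * (1 / F i) ≤ kap (i + 1) * (1 / F (i + 1)) :=
    mul_le_mul kl.le hcon p0.le (by linarith)
  rw [e1] at hz1
  rw [e0]
  have := mul_le_mul_of_nonneg_left hcon (abs_nonneg z.1)
  have := mul_le_mul_of_nonneg_left hg (abs_nonneg z.2)
  linarith

lemma PreChain.mono (h : PreChain Q m kap a b F) {i : ℕ} (h1 : 1 ≤ i) (h2 : i < m) :
    kap i / F i < kap (i + 1) / F (i + 1) := by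
  by_contra hcon
  push Not at hcon
  apply h.nonred (i + 1) (by omega) h2
  intro z hz
  have hz1 := hz i h1 h2.le (by omega)
  have k0 := h.kap_pos i h1 h2.le
  have kl := h.kap_lt i h1 h2
  have k1 := h.kap_pos (i + 1) (by omega) h2
  have p0 : 0 < F i := h.F_pos i h1 h2.le
  have p1 : 0 < F (i + 1) := h.F_pos (i + 1) (by omega) h2
  have hf : 1 / F (i + 1) ≤ 1 / F i := by
    have e1 : 1 / F (i + 1) = (kap (i + 1) / F (i + 1)) / kap (i + 1) := by
      field_simp
    have e2 : 1 / F i = (kap i / F i) / kap i := by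
      field_simp
    rw [e1, e2]
    calc (kap (i + 1) / F (i + 1)) / kap (i + 1) ≤ (kap i / F i) / kap (i + 1) :=
          div_le_div_of_nonneg_right hcon k1.le
      _ ≤ (kap i / F i) / kap i := div_le_div_of_nonneg_left (by positivity) k0 kl.le
  have := mul_le_mul_of_nonneg_left hf (abs_nonneg z.1)
  have := mul_le_mul_of_nonneg_left hcon (abs_nonneg z.2)
  linarith

/-- The ghost extension of a chain without redundant nodes is a chain. -/
lemma PreChain.isChain (h : PreChain Q m kap a b F) (hm : 1 ≤ m) :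
    IsChain m (gf m fun i => 1 / F i) (gg m fun i => kap i / F i) where
  f_pos i h1 h2 := by
    rw [gf_mid _ h1 h2]
    exact one_div_pos.2 (h.F_pos i h1 h2)
  g_pos i h1 h2 := by
    rw [gg_mid _ h1 h2]
    exact div_pos (h.kap_pos i h1 h2) (h.F_pos i h1 h2)
  f_anti i h1 h2 := by
    rw [gf_mid _ (show 1 ≤ i + 1 by omega) (show i + 1 ≤ m by omega), gf_mid _ h1 h2.le]
    exact h.anti h1 h2
  g_mono i h1 h2 := by
    rw [gg_mid _ (show 1 ≤ i + 1 by omega) (show i + 1 ≤ m by omega), gg_mid _ h1 h2.le]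
    exact h.mono h1 h2
  f_zero := by
    rw [gf_mid _ le_rfl hm]
    simp [gf]
  g_zero := by
    rw [gg_mid _ le_rfl hm]
    simp [gg]
  f_last := by
    rw [gf_mid _ hm le_rfl]
    simp [gf]
  g_last := by
    rw [gg_mid _ hm le_rfl]
    simp [gg]

/-- All node weights are nonnegative. -/
lemma PreChain.nodeQ_nonneg (h : PreChain Q m kap a b F) (hm : 1 ≤ m) {i : ℕ} (hi : i < m) :
    0 ≤ nodeQ (gf m fun i => 1 / F i) (gg m fun i => kap i / F i) i := by
  have hc := h.isChain hm
  set f := gf m fun i => 1 / F i with hf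
  set g := gg m fun i => kap i / F i with hg
  have d0 := hc.delta_pos hm (show i ≤ m by omega)
  have d1 := hc.delta_pos hm (show i + 1 ≤ m by omega)
  rw [nodeQ_eq d0.ne' d1.ne']
  rcases Nat.eq_zero_or_pos i with rfl | hi0
  · -- the first node
    simp only [zero_add] at d0 d1 ⊢
    have f0 := hc.f_zero
    have g0 := hc.g_zero
    have g1 := hc.g_pos 1 le_rfl hm
    have f1 := hc.f_pos 1 le_rfl hm
    have f2 : f 2 < f 1 := by
      rcases Nat.lt_or_ge 1 m with hlt | hge
      · exact hc.f_anti 1 le_rfl hlt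
      · have : m = 1 := by omega
        subst this
        have := hc.f_last
        simp only [Nat.reduceAdd] at this
        rw [this]
        linarith
    apply div_nonneg _ (mul_pos d0 d1).le
    rw [f0, g0]
    nlinarith
  · rcases Nat.lt_or_ge (i + 1) m with hlt | hge
    · -- interior nodes
      apply div_nonneg _ (mul_pos d0 d1).le
      by_contra hcon
      push Not at hcon
      apply h.nonred (i + 1) (by omega) hlt.le
      intro z hz
      have z0 := hz i hi0 hi.le (by omega)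
      have z2 := hz (i + 2) (by omega) (by omega) (by omega)
      have ef0 : f i = 1 / F i := gf_mid _ hi0 hi.le
      have ef1 : f (i + 1) = 1 / F (i + 1) := gf_mid _ (by omega) (by omega)
      have ef2 : f (i + 2) = 1 / F (i + 2) := gf_mid _ (by omega) (by omega)
      have eg0 : g i = kap i / F i := gg_mid _ hi0 hi.le
      have eg1 : g (i + 1) = kap (i + 1) / F (i + 1) := gg_mid _ (by omega) (by omega)
      have eg2 : g (i + 2) = kap (i + 2) / F (i + 2) := gg_mid _ (by omega) (by omega)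
      rw [← ef0, ← eg0] at z0
      rw [← ef2, ← eg2] at z2
      rw [← ef1, ← eg1]
      set d2 := f i * g (i + 2) - f (i + 2) * g i with hd2
      set A := f i * g (i + 1) - f (i + 1) * g i with hA
      set B := f (i + 1) * g (i + 2) - f (i + 2) * g (i + 1) with hB
      have hid : d2 * (|z.1| * f (i + 1) + |z.2| * g (i + 1))
          = B * (|z.1| * f i + |z.2| * g i) + A * (|z.1| * f (i + 2) + |z.2| * g (i + 2)) := by
        simp only [hd2, hA, hB]
        ring
      have hd2pos : 0 < d2 := by linarith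
      have t : d2 * (|z.1| * f (i + 1) + |z.2| * g (i + 1)) ≤ d2 := by
        rw [hid]
        nlinarith [mul_le_mul_of_nonneg_left z0 d1.le, mul_le_mul_of_nonneg_left z2 d0.le]
      by_contra hc2
      push Not at hc2
      nlinarith
    · -- the last node
      have : m = i + 1 := by omega
      subst this
      have fl : f (i + 1 + 1) = - f (i + 1) := hc.f_last
      have gl : g (i + 1 + 1) = g (i + 1) := hc.g_last
      have fp := hc.f_pos (i + 1) (by omega) le_rfl
      have gm := hc.g_mono i hi0 (by omega)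
      apply div_nonneg _ (mul_pos d0 d1).le
      have e1 : i + 2 = i + 1 + 1 := rfl
      rw [e1, fl, gl]
      nlinarith

lemma F_arith {a b F κ : ℝ} (ha : 0 < a) (hb : 0 < b) (hF : 0 < F) (h : F ^ 2 = a * b) :
    (1 / F) / (a / F) = 1 / a ∧ (κ / F) / (a / F) = κ / a ∧
      (1 / F) * (a / F) = 1 / b ∧ (κ / F) * (a / F) = κ / b := by
  have e : F * F = a * b := by nlinarith
  refine ⟨?_, ?_, ?_, ?_⟩
  · field_simp
  · field_simp
  · rw [show (1 / F) * (a / F) = a / (F * F) by field_simp, e]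
    field_simp
  · rw [show (κ / F) * (a / F) = κ * a / (F * F) by field_simp, e]
    field_simp

/-- The contact property of the whole dual sequence. -/
lemma PreChain.cont_Yseq (h : PreChain Q m kap a b F) (hm : 1 ≤ m) (hsym : ∀ x ∈ Q, -x ∈ Q)
    {j : ℕ} (hj : j ≤ 2 * m + 1) :
    Cont Q (Yseq m (gf m fun i => 1 / F i) (gg m fun i => kap i / F i)
      (gw m fun i => a i / F i) j) := by
  have hc := h.isChain hm
  rcases Nat.lt_or_ge (m + 1) j with hlarge | hsmall
  · -- second half
    have : ¬ j ≤ m + 1 := by omega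
    simp only [Yseq, this, if_false]
    obtain ⟨l, hl⟩ : ∃ l, l = 2 * m + 1 - j := ⟨_, rfl⟩
    rw [← hl]
    have hlm : l + 1 ≤ m := by omega
    rcases Nat.eq_zero_or_pos l with rfl | hl0
    · -- first node, reversed
      have ha := h.a_pos 1 le_rfl hm
      have hb := h.b_pos 1 le_rfl hm
      have hF := h.F_pos 1 le_rfl hm
      obtain ⟨e1, e2, e3, e4⟩ := F_arith (κ := kap 1) ha hb hF (h.F_sq 1 le_rfl hm)
      have := (h.contA 1 le_rfl hm).neg hsym
      convert this using 1
      rw [gf_zero, gg_zero, gw_zero]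
      ext
      · simp only [Prod.fst_neg]
        rw [← e1, neg_mul, neg_inj, div_eq_mul_inv, one_div (a 1 / F 1)]
        ring
      · simp only [Prod.snd_neg]
        rw [← e2, neg_mul, neg_inj, div_eq_mul_inv (kap 1 / F 1), one_div (a 1 / F 1)]
    · have ha := h.a_pos l hl0 (by omega)
      have hb := h.b_pos l hl0 (by omega)
      have hF := h.F_pos l hl0 (by omega)
      obtain ⟨e1, e2, e3, e4⟩ := F_arith (κ := kap l) ha hb hF (h.F_sq l hl0 (by omega))
      have := (h.contB l hl0 (by omega)).neg hsym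
      convert this using 1
      rw [gf_mid _ hl0 (by omega), gg_mid _ hl0 (by omega), gw_mid _ hl0 (by omega)]
      ext
      · simp only [Prod.fst_neg]
        rw [← e3]
        ring
      · simp only [Prod.snd_neg]
        rw [neg_div, neg_neg, ← e4]
  · rw [Yseq_low hsmall]
    rcases Nat.eq_zero_or_pos j with rfl | hj0
    · -- ghost node at the start
      have ha := h.a_pos 1 le_rfl hm
      have hb := h.b_pos 1 le_rfl hm
      have hF := h.F_pos 1 le_rfl hm
      obtain ⟨e1, e2, e3, e4⟩ := F_arith (κ := kap 1) ha hb hF (h.F_sq 1 le_rfl hm)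
      have := h.contB 1 le_rfl hm
      convert this using 1
      rw [gf_zero, gg_zero, gw_zero, div_one_div', div_one_div', e3, neg_mul, e4, neg_div]
    · rcases Nat.lt_or_ge m j with hgh | hle
      · -- ghost node at the end
        have hjm : j = m + 1 := by omega
        subst hjm
        have ha := h.a_pos m hm le_rfl
        have hb := h.b_pos m hm le_rfl
        have hF := h.F_pos m hm le_rfl
        obtain ⟨e1, e2, e3, e4⟩ := F_arith (κ := kap m) ha hb hF (h.F_sq m hm le_rfl)
        have := (h.contB m hm le_rfl).neg hsym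
        convert this using 1
        rw [gf_last', gg_last', gw_last', div_one_div', div_one_div', neg_mul, e3, e4]
        ext
        · simp
        · simp [neg_div]
      · have ha := h.a_pos j hj0 hle
        have hb := h.b_pos j hj0 hle
        have hF := h.F_pos j hj0 hle
        obtain ⟨e1, e2, e3, e4⟩ := F_arith (κ := kap j) ha hb hF (h.F_sq j hj0 hle)
        have := h.contA j hj0 hle
        convert this using 1
        rw [gf_mid _ hj0 hle, gg_mid _ hj0 hle, gw_mid _ hj0 hle, e1, e2]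

/-- The weights of the ghost extension. -/
lemma PreChain.isWeight (h : PreChain Q m kap a b F) (hm : 1 ≤ m) :
    IsWeight m (gw m fun i => a i / F i) where
  pos j h1 h2 := by
    rw [gw_mid _ h1 h2]
    exact div_pos (h.a_pos j h1 h2) (h.F_pos j h1 h2)
  zero := by
    rw [gw_mid _ le_rfl hm]
    simp [gw]
  last := by
    rw [gw_mid _ hm le_rfl]
    simp [gw]

/-- The finite reflection inequality. -/
theorem PreChain.volume_le {n : ℕ} (h : PreChain Q (n + 1) kap a b F) (hsym : ∀ x ∈ Q, -x ∈ Q) :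
    volume Q ≤ volume {z : ℝ × ℝ | ∀ k, 1 ≤ k → k ≤ n + 1 →
      |z.1| * (1 / F k) + |z.2| * (kap k / F k) ≤ 1} := by
  have hm : 1 ≤ n + 1 := by omega
  have hc := h.isChain hm
  have hW := h.isWeight hm
  have h1 := chain_upper hc hW hsym
    (fun j hj => (h.cont_Yseq hm hsym hj).1) (fun j hj => (h.cont_Yseq hm hsym hj).2)
  have h2 := chain_lower hc hm (fun i hi => h.nodeQ_nonneg hm hi)
  refine h1.trans (h2.trans (le_of_eq ?_))
  congr 1
  ext z
  simp only [chainPoly, mem_ofPred_eq]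
  refine forall_congr' fun k => forall_congr' fun h3 => forall_congr' fun h4 => ?_
  rw [gf_mid _ h3 h4, gg_mid _ h3 h4]

end Vale.Agent.Lib.P227G
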