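import Mathlib
import Vale.Agent.Lib.P227G.ChainCore

/-!
# The planar reflection inequality

For a compact origin-symmetric set `Q` of the plane, the geometric mean of the support function
of `Q` and of its reflection supports an unconditional body of at least the same area.
-/

open MeasureTheory Set Filter Topology
open scoped ENNReal

namespace Vale.Agent.Lib.P227G

/-- The support function of a planar set. -/
noncomputable def sup2 (Q : Set (ℝ × ℝ)) (u : ℝ × ℝ) : ℝ := sSup ((fun x => dt x u) '' Q)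

/-- The geometric mean of the support function and its reflection. -/
noncomputable def Mh (Q : Set (ℝ × ℝ)) (a b : ℝ) : ℝ :=
  Real.sqrt (sup2 Q (a, b) * sup2 Q (a, -b))

/-- The polygon cut out by finitely many slopes. -/
def polyT (Q : Set (ℝ × ℝ)) (T : Finset ℝ) : Set (ℝ × ℝ) :=
  {z | ∀ κ ∈ T, |z.1| + κ * |z.2| ≤ Mh Q 1 κ}

/-- The unconditional body supported by the geometric mean. -/
def polar2 (Q : Set (ℝ × ℝ)) : Set (ℝ × ℝ) :=
  {z | ∀ a b : ℝ, 0 ≤ a → 0 ≤ b → a * |z.1| + b * |z.2| ≤ Mh Q a b}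

variable {Q : Set (ℝ × ℝ)}

lemma continuous_dt : Continuous fun p : (ℝ × ℝ) × (ℝ × ℝ) => dt p.2 p.1 := by
  unfold dt
  fun_prop

lemma continuous_dt_left (u : ℝ × ℝ) : Continuous fun x : ℝ × ℝ => dt x u := by
  unfold dt
  fun_prop

lemma le_sup2 (hQ : IsCompact Q) {x : ℝ × ℝ} (hx : x ∈ Q) (u : ℝ × ℝ) : dt x u ≤ sup2 Q u :=
  le_csSup (hQ.image (continuous_dt_left u)).bddAbove ⟨x, hx, rfl⟩

lemma exists_sup2 (hQ : IsCompact Q) (hne : Q.Nonempty) (u : ℝ × ℝ) :
    ∃ x ∈ Q, dt x u = sup2 Q u := by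
  have := (hQ.image (continuous_dt_left u)).sSup_mem (hne.image _)
  obtain ⟨x, hx, h⟩ := this
  exact ⟨x, hx, h⟩

lemma continuous_sup2 (hQ : IsCompact Q) : Continuous (sup2 Q) := by
  have := hQ.continuous_sSup (f := fun (u : ℝ × ℝ) (x : ℝ × ℝ) => dt x u) continuous_dt
  exact this

lemma sup2_smul (hQ : IsCompact Q) (hne : Q.Nonempty) {c : ℝ} (hc : 0 ≤ c) (a b : ℝ) :
    sup2 Q (c * a, c * b) = c * sup2 Q (a, b) := by
  apply le_antisymm
  · obtain ⟨x, hx, h⟩ := exists_sup2 hQ hne (c * a, c * b)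
    rw [← h]
    have := le_sup2 hQ hx (a, b)
    have e : dt x (c * a, c * b) = c * dt x (a, b) := by
      simp only [dt]; ring
    rw [e]
    exact mul_le_mul_of_nonneg_left this hc
  · obtain ⟨x, hx, h⟩ := exists_sup2 hQ hne (a, b)
    rw [← h]
    have := le_sup2 hQ hx (c * a, c * b)
    have e : dt x (c * a, c * b) = c * dt x (a, b) := by
      simp only [dt]; ring
    rw [e] at this
    exact this

lemma Mh_smul (hQ : IsCompact Q) (hne : Q.Nonempty) {c : ℝ} (hc : 0 ≤ c) (a b : ℝ) :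
    Mh Q (c * a) (c * b) = c * Mh Q a b := by
  simp only [Mh]
  have e : (c * a, - (c * b)) = (c * a, c * (- b)) := by simp
  rw [e, sup2_smul hQ hne hc, sup2_smul hQ hne hc]
  rw [show c * sup2 Q (a, b) * (c * sup2 Q (a, -b)) = c ^ 2 * (sup2 Q (a, b) * sup2 Q (a, -b)) by
    ring]
  rw [Real.sqrt_mul (sq_nonneg c), Real.sqrt_sq hc]

lemma continuous_Mh (hQ : IsCompact Q) : Continuous fun p : ℝ × ℝ => Mh Q p.1 p.2 := by
  have h := continuous_sup2 hQ
  simp only [Mh]
  refine Continuous.sqrt (Continuous.mul ?_ ?_)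
  · exact h.comp (by fun_prop)
  · exact h.comp (by fun_prop)

lemma ineq_iff {x y κ F : ℝ} (hF : 0 < F) :
    x * (1 / F) + y * (κ / F) ≤ 1 ↔ x + κ * y ≤ F := by
  have e : x * (1 / F) + y * (κ / F) = (x + κ * y) / F := by
    field_simp
  rw [e, div_le_one hF]

lemma cont_sup2 (hQ : IsCompact Q) (hne : Q.Nonempty) (hpos : ∀ u : ℝ × ℝ, u ≠ 0 → 0 < sup2 Q u)
    (κ : ℝ) : Cont Q (1 / sup2 Q (1, κ), κ / sup2 Q (1, κ)) := by
  have hp : 0 < sup2 Q (1, κ) := hpos _ (by simp)
  have e : ∀ x : ℝ × ℝ, dt x (1 / sup2 Q (1, κ), κ / sup2 Q (1, κ)) = dt x (1, κ) / sup2 Q (1, κ) := by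
    intro x
    simp only [dt]
    ring
  constructor
  · intro x hx
    rw [e, div_le_one hp]
    exact le_sup2 hQ hx _
  · obtain ⟨x, hx, h⟩ := exists_sup2 hQ hne (1, κ)
    refine ⟨x, hx, ?_⟩
    rw [e, h, div_self hp.ne']

/-- The finite version of the reflection inequality. -/
theorem polyT_volume (hQ : IsCompact Q) (hne : Q.Nonempty) (hsym : ∀ x ∈ Q, -x ∈ Q)
    (hpos : ∀ u : ℝ × ℝ, u ≠ 0 → 0 < sup2 Q u) {T : Finset ℝ} (hT : ∀ κ ∈ T, 0 < κ)
    (hTne : T.Nonempty) : volume Q ≤ volume (polyT Q T) := by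
  classical
  -- a minimal subset with the same polygon
  obtain ⟨T', hT'S, hT'min⟩ := Finset.exists_min_image
    (T.powerset.filter fun S => polyT Q S = polyT Q T) Finset.card
    ⟨T, Finset.mem_filter.2 ⟨Finset.mem_powerset.2 (Finset.Subset.refl _), rfl⟩⟩
  obtain ⟨hT'T, hT'eq⟩ := Finset.mem_filter.1 hT'S
  have hT'T := Finset.mem_powerset.1 hT'T
  rw [← hT'eq]
  -- nonempty
  have hT'ne : T'.Nonempty := by
    by_contra hcon
    rw [Finset.not_nonempty_iff_eq_empty] at hcon
    subst hcon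
    obtain ⟨κ, hκ⟩ := hTne
    have h1 : ((Mh Q 1 κ + 1, 0) : ℝ × ℝ) ∈ polyT Q ∅ := by
      intro κ' hκ'
      simp at hκ'
    rw [hT'eq] at h1
    have := h1 κ hκ
    simp only [abs_zero, mul_zero, add_zero] at this
    have h2 := le_abs_self (Mh Q 1 κ + 1)
    linarith
  obtain ⟨n, hn⟩ : ∃ n, T'.card = n + 1 := by
    have := Finset.card_pos.2 hT'ne
    exact ⟨T'.card - 1, by omega⟩
  set e := T'.orderEmbOfFin rfl with he
  set kap : ℕ → ℝ := fun i => if h : i - 1 < T'.card then e ⟨i - 1, h⟩ else 0 with hkap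
  have kap_eq : ∀ i (h1 : 1 ≤ i) (h2 : i ≤ n + 1),
      kap i = e ⟨i - 1, by omega⟩ := by
    intro i h1 h2
    simp only [hkap]
    rw [dif_pos (by omega)]
  have kap_mem : ∀ i, 1 ≤ i → i ≤ n + 1 → kap i ∈ T' := by
    intro i h1 h2
    rw [kap_eq i h1 h2]
    exact Finset.orderEmbOfFin_mem _ _ _
  have kap_inj : ∀ i j, 1 ≤ i → i ≤ n + 1 → 1 ≤ j → j ≤ n + 1 → kap i = kap j → i = j := by
    intro i j h1 h2 h3 h4 h
    rw [kap_eq i h1 h2, kap_eq j h3 h4] at h
    have := e.injective h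
    simp only [Fin.mk.injEq] at this
    omega
  have kap_surj : ∀ κ ∈ T', ∃ k, 1 ≤ k ∧ k ≤ n + 1 ∧ kap k = κ := by
    intro κ hκ
    have : κ ∈ Set.range e := by
      rw [he, Finset.range_orderEmbOfFin]
      exact hκ
    obtain ⟨⟨k, hk⟩, rfl⟩ := this
    refine ⟨k + 1, by omega, by omega, ?_⟩
    rw [kap_eq (k + 1) (by omega) (by omega)]
    congr 1
  have hpc : PreChain Q (n + 1) kap (fun i => sup2 Q (1, kap i)) (fun i => sup2 Q (1, - kap i))
      (fun i => Mh Q 1 (kap i)) := by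
    refine ⟨?_, ?_, ?_, ?_, ?_, ?_, ?_, ?_, ?_⟩
    · exact fun i h1 h2 => hT _ (hT'T (kap_mem i h1 h2))
    · intro i h1 h2
      rw [kap_eq i h1 (by omega), kap_eq (i + 1) (by omega) (by omega)]
      apply e.strictMono
      simp only [Fin.mk_lt_mk]
      omega
    · exact fun i _ _ => hpos _ (by simp)
    · exact fun i _ _ => hpos _ (by simp)
    · exact fun i _ _ => Real.sqrt_pos.2 (mul_pos (hpos _ (by simp)) (hpos _ (by simp)))
    · intro i _ _
      exact Real.sq_sqrt (mul_pos (hpos _ (by simp)) (hpos _ (by simp))).le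
    · exact fun i _ _ => cont_sup2 hQ hne hpos _
    · intro i _ _
      have := cont_sup2 hQ hne hpos (- kap i)
      exact this
    · intro k h1 h2 hred
      have hmem := kap_mem k h1 h2
      have hsub : T'.erase (kap k) ∈ T.powerset.filter fun S => polyT Q S = polyT Q T := by
        refine Finset.mem_filter.2 ⟨Finset.mem_powerset.2
          ((Finset.erase_subset _ _).trans hT'T), ?_⟩
        rw [← hT'eq]
        apply Set.Subset.antisymm
        · intro z hz κ hκ
          by_cases hκk : κ = kap k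
          · subst hκk
            have := hred z (by
              intro j h3 h4 h5
              have hFj : 0 < Mh Q 1 (kap j) :=
                Real.sqrt_pos.2 (mul_pos (hpos _ (by simp)) (hpos _ (by simp)))
              rw [ineq_iff hFj]
              apply hz
              refine Finset.mem_erase.2 ⟨?_, kap_mem j h3 h4⟩
              intro h6
              exact h5 (kap_inj j k h3 h4 h1 h2 h6))
            have hFj : 0 < Mh Q 1 (kap k) :=
              Real.sqrt_pos.2 (mul_pos (hpos _ (by simp)) (hpos _ (by simp)))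
            rwa [ineq_iff hFj] at this
          · exact hz κ (Finset.mem_erase.2 ⟨hκk, hκ⟩)
        · intro z hz κ hκ
          exact hz κ (Finset.mem_of_mem_erase hκ)
      have := hT'min _ hsub
      have h3 := Finset.card_erase_lt_of_mem hmem
      omega
  have hmain := hpc.volume_le hsym
  refine hmain.trans (measure_mono ?_)
  intro z hz κ hκ
  obtain ⟨k, h1, h2, rfl⟩ := kap_surj κ hκ
  have hFj : 0 < Mh Q 1 (kap k) :=
    Real.sqrt_pos.2 (mul_pos (hpos _ (by simp)) (hpos _ (by simp)))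
  rw [← ineq_iff hFj]
  exact hz k h1 h2

/-- The polygons exhaust the polar body. -/
lemma polar2_of_dense (hQ : IsCompact Q) (hne : Q.Nonempty) {z : ℝ × ℝ} {r : ℕ → ℝ}
    (hr : DenseRange r) (h : ∀ i, |z.1| + Real.exp (r i) * |z.2| ≤ Mh Q 1 (Real.exp (r i))) :
    z ∈ polar2 Q := by
  have hMc := continuous_Mh hQ
  -- all slopes
  have h1 : ∀ s : ℝ, |z.1| + Real.exp s * |z.2| ≤ Mh Q 1 (Real.exp s) := by
    intro s
    have hcl : IsClosed {s : ℝ | |z.1| + Real.exp s * |z.2| ≤ Mh Q 1 (Real.exp s)} := by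
      apply isClosed_le (by fun_prop)
      exact hMc.comp (f := fun s : ℝ => ((1 : ℝ), Real.exp s)) (by fun_prop)
    have : closure (Set.range r) ⊆ {s : ℝ | |z.1| + Real.exp s * |z.2| ≤ Mh Q 1 (Real.exp s)} :=
      closure_minimal (by rintro _ ⟨i, rfl⟩; exact h i) hcl
    exact this (hr s)
  -- open quadrant
  have h2 : ∀ a b : ℝ, 0 < a → 0 < b → a * |z.1| + b * |z.2| ≤ Mh Q a b := by
    intro a b ha hb
    have h3 := h1 (Real.log (b / a))
    rw [Real.exp_log (div_pos hb ha)] at h3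
    have h4 := mul_le_mul_of_nonneg_left h3 ha.le
    have h5 := Mh_smul hQ hne ha.le 1 (b / a)
    have e1 : a * 1 = a := mul_one a
    have e2 : a * (b / a) = b := by field_simp
    rw [e1, e2] at h5
    rw [h5]
    calc a * |z.1| + b * |z.2| = a * (|z.1| + b / a * |z.2|) := by field_simp
      _ ≤ _ := h4
  intro a b ha hb
  have hc : Continuous fun ε : ℝ => (a + ε) * |z.1| + (b + ε) * |z.2| := by fun_prop
  have hd : Continuous fun ε : ℝ => Mh Q (a + ε) (b + ε) :=
    hMc.comp (f := fun ε : ℝ => (a + ε, b + ε)) (by fun_prop)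
  have l1 : Tendsto (fun ε : ℝ => (a + ε) * |z.1| + (b + ε) * |z.2|) (𝓝[>] 0)
      (𝓝 ((a + 0) * |z.1| + (b + 0) * |z.2|)) :=
    (hc.tendsto 0).mono_left nhdsWithin_le_nhds
  have l2 : Tendsto (fun ε : ℝ => Mh Q (a + ε) (b + ε)) (𝓝[>] 0) (𝓝 (Mh Q (a + 0) (b + 0))) :=
    (hd.tendsto 0).mono_left nhdsWithin_le_nhds
  have := le_of_tendsto_of_tendsto l1 l2 (by
    filter_upwards [self_mem_nhdsWithin] with ε hε
    have hε' : 0 < ε := hε
    exact h2 _ _ (by linarith) (by linarith))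
  simpa using this

/-- The planar reflection inequality. -/
theorem q1pair (hQ : IsCompact Q) (hne : Q.Nonempty) (hsym : ∀ x ∈ Q, -x ∈ Q)
    (hpos : ∀ u : ℝ × ℝ, u ≠ 0 → 0 < sup2 Q u) : volume Q ≤ volume (polar2 Q) := by
  classical
  set r := TopologicalSpace.denseSeq ℝ with hr
  have hrd : DenseRange r := TopologicalSpace.denseRange_denseSeq ℝ
  set T : ℕ → Finset ℝ := fun N => (Finset.range (N + 1)).image fun i => Real.exp (r i) with hT
  have hTpos : ∀ N, ∀ κ ∈ T N, 0 < κ := by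
    intro N κ hκ
    obtain ⟨i, _, rfl⟩ := Finset.mem_image.1 hκ
    exact Real.exp_pos _
  have hTne : ∀ N, (T N).Nonempty := fun N => ⟨Real.exp (r 0),
    Finset.mem_image.2 ⟨0, by simp, rfl⟩⟩
  have hanti : Antitone fun N => polyT Q (T N) := by
    intro N M hNM z hz κ hκ
    obtain ⟨i, hi, rfl⟩ := Finset.mem_image.1 hκ
    apply hz
    refine Finset.mem_image.2 ⟨i, ?_, rfl⟩
    have := Finset.mem_range.1 hi
    exact Finset.mem_range.2 (by omega)
  have hmeas : ∀ N, MeasurableSet (polyT Q (T N)) := by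
    intro N
    have : polyT Q (T N) = ⋂ κ ∈ T N, {z : ℝ × ℝ | |z.1| + κ * |z.2| ≤ Mh Q 1 κ} := by
      ext z
      simp [polyT]
    rw [this]
    refine Finset.measurableSet_biInter _ fun κ _ => ?_
    have hc : Continuous fun z : ℝ × ℝ => |z.1| + κ * |z.2| := by fun_prop
    exact (isClosed_le hc continuous_const).measurableSet
  have hfin : volume (polyT Q (T 0)) ≠ ∞ := by
    have hκ : Real.exp (r 0) ∈ T 0 := Finset.mem_image.2 ⟨0, by simp, rfl⟩
    set κ := Real.exp (r 0) with hκd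
    have hκp : 0 < κ := Real.exp_pos _
    set M := Mh Q 1 κ with hM
    have hsub : polyT Q (T 0) ⊆ Metric.closedBall (0 : ℝ × ℝ) (max M (M / κ)) := by
      intro z hz
      have h1 := hz κ hκ
      have a1 := abs_nonneg z.1
      have a2 := abs_nonneg z.2
      rw [mem_closedBall_zero_iff, Prod.norm_def]
      apply max_le_max
      · rw [Real.norm_eq_abs]
        nlinarith [mul_nonneg hκp.le a2]
      · rw [Real.norm_eq_abs, le_div_iff₀ hκp]
        nlinarith
    exact ne_top_of_le_ne_top (Metric.isBounded_closedBall.measure_lt_top).ne (measure_mono hsub)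
  have hlim := tendsto_measure_iInter_atTop (μ := volume)
    (fun N => (hmeas N).nullMeasurableSet) hanti ⟨0, hfin⟩
  have hle : volume Q ≤ volume (⋂ N, polyT Q (T N)) :=
    ge_of_tendsto' hlim fun N => polyT_volume hQ hne hsym hpos (hTpos N) (hTne N)
  refine hle.trans (measure_mono ?_)
  intro z hz
  apply polar2_of_dense hQ hne hrd
  intro i
  have hz' := mem_iInter.1 hz i
  exact hz' _ (Finset.mem_image.2 ⟨i, by simp, rfl⟩)

end Vale.Agent.Lib.P227G
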