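import Mathlib
import Vale.Agent.Lib.P227G.Q1Pair

/-!
# Erosion by a rectangle and the reflection inequality
-/

open MeasureTheory Set
open scoped ENNReal

namespace Vale.Agent.Lib.P227G

/-- The points whose rectangle translate lies in `P`. -/
def erode (P : Set (ℝ × ℝ)) (r w : ℝ) : Set (ℝ × ℝ) :=
  {c | (c.1 + r, c.2 + w) ∈ P ∧ (c.1 + r, c.2 - w) ∈ P ∧ (c.1 - r, c.2 + w) ∈ P ∧ (c.1 - r, c.2 - w) ∈ P}

variable {P : Set (ℝ × ℝ)} {r w : ℝ}

lemma erode_compact (hP : IsCompact P) (r w : ℝ) : IsCompact (erode P r w) := by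
  have hcl : IsClosed (erode P r w) := by
    have hc := hP.isClosed
    have e : erode P r w = (fun c : ℝ × ℝ => (c.1 + r, c.2 + w)) ⁻¹' P
        ∩ ((fun c : ℝ × ℝ => (c.1 + r, c.2 - w)) ⁻¹' P
        ∩ ((fun c : ℝ × ℝ => (c.1 - r, c.2 + w)) ⁻¹' P
        ∩ (fun c : ℝ × ℝ => (c.1 - r, c.2 - w)) ⁻¹' P)) := rfl
    rw [e]
    exact (hc.preimage (by fun_prop)).inter ((hc.preimage (by fun_prop)).inter
      ((hc.preimage (by fun_prop)).inter (hc.preimage (by fun_prop))))
  have hsub : erode P r w ⊆ (fun x : ℝ × ℝ => (x.1 - r, x.2 - w)) '' P := by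
    intro c hc
    exact ⟨_, hc.1, by simp⟩
  exact (hP.image (by fun_prop)).of_isClosed_subset hcl hsub

lemma erode_symm (hsym : ∀ x ∈ P, -x ∈ P) {c : ℝ × ℝ} (hc : c ∈ erode P r w) : -c ∈ erode P r w := by
  obtain ⟨h1, h2, h3, h4⟩ := hc
  refine ⟨?_, ?_, ?_, ?_⟩
  · have := hsym _ h4
    convert this using 1
    ext <;> simp <;> ring
  · have := hsym _ h3
    convert this using 1
    ext <;> simp <;> ring
  · have := hsym _ h2
    convert this using 1
    ext <;> simp <;> ring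
  · have := hsym _ h1
    convert this using 1
    ext <;> simp <;> ring

lemma sup2_nonneg_of_symm {E : Set (ℝ × ℝ)} (hE : IsCompact E) (hne : E.Nonempty)
    (hsym : ∀ x ∈ E, -x ∈ E) (u : ℝ × ℝ) : 0 ≤ sup2 E u := by
  obtain ⟨x, hx⟩ := hne
  have h1 := le_sup2 hE hx u
  have h2 := le_sup2 hE (hsym x hx) u
  have e : dt (-x) u = - dt x u := by
    simp only [dt, Prod.fst_neg, Prod.snd_neg]
    ring
  rw [e] at h2
  linarith

/-- The geometric mean of the support numbers grows at least by the support of the rectangle. -/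
lemma sqrt_mul_add_le {x y c : ℝ} (hx : 0 ≤ x) (hy : 0 ≤ y) (hc : 0 ≤ c) :
    Real.sqrt (x * y) + c ≤ Real.sqrt ((x + c) * (y + c)) := by
  apply Real.le_sqrt_of_sq_le
  have h1 : Real.sqrt (x * y) ^ 2 = x * y := Real.sq_sqrt (mul_nonneg hx hy)
  have h2 : 2 * Real.sqrt (x * y) ≤ x + y := by
    have : Real.sqrt (x * y) = Real.sqrt x * Real.sqrt y := Real.sqrt_mul hx y
    rw [this]
    nlinarith [sq_nonneg (Real.sqrt x - Real.sqrt y), Real.sq_sqrt hx, Real.sq_sqrt hy]
  nlinarith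

lemma Mh_erode_add_le (hP : IsCompact P) (hE : (erode P r w).Nonempty) (hsym : ∀ x ∈ P, -x ∈ P)
    (hr : 0 ≤ r) (hw : 0 ≤ w) {a b : ℝ} (ha : 0 ≤ a) (hb : 0 ≤ b) :
    Mh (erode P r w) a b + (a * r + b * w) ≤ Mh P a b := by
  have hEc := erode_compact hP r w
  have hEs : ∀ x ∈ erode P r w, -x ∈ erode P r w := fun x hx => erode_symm hsym hx
  have h0 : 0 ≤ a * r + b * w := by positivity
  have s1 : sup2 (erode P r w) (a, b) + (a * r + b * w) ≤ sup2 P (a, b) := by
    obtain ⟨x, hx, h⟩ := exists_sup2 hEc hE (a, b)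
    rw [← h]
    have := le_sup2 hP hx.1 (a, b)
    simp only [dt] at this ⊢
    linarith
  have s2 : sup2 (erode P r w) (a, -b) + (a * r + b * w) ≤ sup2 P (a, -b) := by
    obtain ⟨x, hx, h⟩ := exists_sup2 hEc hE (a, -b)
    rw [← h]
    have := le_sup2 hP hx.2.1 (a, -b)
    simp only [dt] at this ⊢
    linarith
  have n1 := sup2_nonneg_of_symm hEc hE hEs (a, b)
  have n2 := sup2_nonneg_of_symm hEc hE hEs (a, -b)
  calc Mh (erode P r w) a b + (a * r + b * w)
      ≤ Real.sqrt ((sup2 (erode P r w) (a, b) + (a * r + b * w))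
          * (sup2 (erode P r w) (a, -b) + (a * r + b * w))) := sqrt_mul_add_le n1 n2 h0
    _ ≤ Mh P a b := by
        apply Real.sqrt_le_sqrt
        exact mul_le_mul s1 s2 (by linarith) (by linarith)

lemma polar2_erode_subset (hP : IsCompact P) (hE : (erode P r w).Nonempty)
    (hsym : ∀ x ∈ P, -x ∈ P) (hr : 0 ≤ r) (hw : 0 ≤ w) :
    polar2 (erode P r w) ⊆ erode (polar2 P) r w := by
  intro z hz
  have key : ∀ σ τ : ℝ, |σ| ≤ r → |τ| ≤ w → ((z.1 + σ, z.2 + τ) : ℝ × ℝ) ∈ polar2 P := by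
    intro σ τ hσ hτ a b ha hb
    have h1 := hz a b ha hb
    have h2 := Mh_erode_add_le hP hE hsym hr hw ha hb
    have h3 : |z.1 + σ| ≤ |z.1| + r := (abs_add_le _ _).trans (by linarith)
    have h4 : |z.2 + τ| ≤ |z.2| + w := (abs_add_le _ _).trans (by linarith)
    simp only
    have h5 := mul_le_mul_of_nonneg_left h3 ha
    have h6 := mul_le_mul_of_nonneg_left h4 hb
    nlinarith
  refine ⟨key r w ?_ ?_, ?_, ?_, ?_⟩
  · rw [abs_of_nonneg hr]
  · rw [abs_of_nonneg hw]
  · have := key r (-w) (by rw [abs_of_nonneg hr]) (by rw [abs_neg, abs_of_nonneg hw])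
    simpa [sub_eq_add_neg] using this
  · have := key (-r) w (by rw [abs_neg, abs_of_nonneg hr]) (by rw [abs_of_nonneg hw])
    simpa [sub_eq_add_neg] using this
  · have := key (-r) (-w) (by rw [abs_neg, abs_of_nonneg hr]) (by rw [abs_neg, abs_of_nonneg hw])
    simpa [sub_eq_add_neg] using this

/-- A symmetric set on which a support number vanishes lies in a line. -/
lemma volume_eq_zero_of_sup2 {E : Set (ℝ × ℝ)} (hE : IsCompact E) (hsym : ∀ x ∈ E, -x ∈ E)
    {u : ℝ × ℝ} (hu : u ≠ 0) (h : sup2 E u ≤ 0) : volume E = 0 := by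
  have hV : ((-u.2, u.1) : ℝ × ℝ) ≠ 0 := by
    intro h0
    apply hu
    have h1 : -u.2 = 0 := congrArg Prod.fst h0
    have h2 : u.1 = 0 := congrArg Prod.snd h0
    ext
    · simpa using h2
    · simpa using h1
  refine measure_mono_null ?_ (volume_wd_eq_zero hV)
  intro x hx
  have h1 := le_sup2 hE hx u
  have h2 := le_sup2 hE (hsym x hx) u
  have e : dt (-x) u = - dt x u := by
    simp only [dt, Prod.fst_neg, Prod.snd_neg]
    ring
  rw [e] at h2
  have h3 : dt x u = 0 := by linarith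
  simp only [mem_ofPred_eq, wd]
  simp only [dt] at h3
  linarith

/-- The erosion inequality. -/
theorem erosion_volume (hP : IsCompact P) (hsym : ∀ x ∈ P, -x ∈ P) (hr : 0 ≤ r) (hw : 0 ≤ w) :
    volume (erode P r w) ≤ volume (erode (polar2 P) r w) := by
  by_cases hE : (erode P r w).Nonempty
  · have hEc := erode_compact hP r w
    have hEs : ∀ x ∈ erode P r w, -x ∈ erode P r w := fun x hx => erode_symm hsym hx
    by_cases hpos : ∀ u : ℝ × ℝ, u ≠ 0 → 0 < sup2 (erode P r w) u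
    · exact (q1pair hEc hE hEs hpos).trans (measure_mono (polar2_erode_subset hP hE hsym hr hw))
    · push Not at hpos
      obtain ⟨u, hu, h⟩ := hpos
      rw [volume_eq_zero_of_sup2 hEc hEs hu h]
      exact bot_le
  · rw [Set.not_nonempty_iff_eq_empty.1 hE]
    simp

/-- The polar body is closed. -/
lemma isClosed_polar2 : IsClosed (polar2 P) := by
  have : polar2 P = ⋂ a : ℝ, ⋂ b : ℝ, ⋂ (_ : 0 ≤ a), ⋂ (_ : 0 ≤ b),
      {z : ℝ × ℝ | a * |z.1| + b * |z.2| ≤ Mh P a b} := by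
    ext z
    simp [polar2]
  rw [this]
  refine isClosed_iInter fun a => isClosed_iInter fun b => isClosed_iInter fun _ =>
    isClosed_iInter fun _ => ?_
  have hc : Continuous fun z : ℝ × ℝ => a * |z.1| + b * |z.2| := by fun_prop
  exact isClosed_le hc continuous_const

/-- The polar body is convex. -/
lemma convex_polar2 : Convex ℝ (polar2 P) := by
  intro x hx y hy s t hs ht hst a b ha hb
  have h1 := hx a b ha hb
  have h2 := hy a b ha hb
  simp only [Prod.fst_add, Prod.snd_add, Prod.smul_fst, Prod.smul_snd, smul_eq_mul]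
  have e1 : |s * x.1 + t * y.1| ≤ s * |x.1| + t * |y.1| := by
    refine (abs_add_le _ _).trans ?_
    rw [abs_mul, abs_mul, abs_of_nonneg hs, abs_of_nonneg ht]
  have e2 : |s * x.2 + t * y.2| ≤ s * |x.2| + t * |y.2| := by
    refine (abs_add_le _ _).trans ?_
    rw [abs_mul, abs_mul, abs_of_nonneg hs, abs_of_nonneg ht]
  have e3 := mul_le_mul_of_nonneg_left e1 ha
  have e4 := mul_le_mul_of_nonneg_left e2 hb
  have e5 : s * (a * |x.1| + b * |x.2|) + t * (a * |y.1| + b * |y.2|) ≤ s * Mh P a b + t * Mh P a b :=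
    add_le_add (mul_le_mul_of_nonneg_left h1 hs) (mul_le_mul_of_nonneg_left h2 ht)
  have e6 : s * Mh P a b + t * Mh P a b = Mh P a b := by
    rw [← add_mul, hst, one_mul]
  nlinarith

/-- The polar body is monotone in the absolute values. -/
lemma polar2_mono {x y : ℝ × ℝ} (hy : y ∈ polar2 P) (h1 : |x.1| ≤ |y.1|) (h2 : |x.2| ≤ |y.2|) :
    x ∈ polar2 P := by
  intro a b ha hb
  have := hy a b ha hb
  have e1 := mul_le_mul_of_nonneg_left h1 ha
  have e2 := mul_le_mul_of_nonneg_left h2 hb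
  linarith

/-- Bounded when the support numbers are. -/
lemma polar2_bounded :
    ∃ R : ℝ, 0 ≤ R ∧ ∀ z ∈ polar2 P, |z.1| ≤ R ∧ |z.2| ≤ R := by
  refine ⟨max (Mh P 1 0) (Mh P 0 1), le_max_of_le_left (Real.sqrt_nonneg _), fun z hz => ?_⟩
  have h1 := hz 1 0 zero_le_one le_rfl
  have h2 := hz 0 1 le_rfl zero_le_one
  simp only [one_mul, zero_mul, add_zero, zero_add] at h1 h2
  exact ⟨h1.trans (le_max_left _ _), h2.trans (le_max_right _ _)⟩

lemma isCompact_polar2 : IsCompact (polar2 P) := by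
  obtain ⟨R, hR, h⟩ := polar2_bounded (P := P)
  apply Metric.isCompact_of_isClosed_isBounded isClosed_polar2
  apply (Metric.isBounded_closedBall (x := (0 : ℝ × ℝ)) (r := R)).subset
  intro z hz
  obtain ⟨h1, h2⟩ := h z hz
  rw [mem_closedBall_zero_iff, Prod.norm_def]
  exact max_le (by simpa using h1) (by simpa using h2)

lemma polar2_symm {x : ℝ × ℝ} (hx : x ∈ polar2 P) : -x ∈ polar2 P := by
  apply polar2_mono hx <;> simp

end Vale.Agent.Lib.P227G
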