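import Mathlib

/-!
# The radial measure and the polar decomposition for a homogeneous function
-/

open MeasureTheory Set Filter Topology
open scoped ENNReal Pointwise

namespace Vale.Agent.Lib.P227G

/-- The radial measure with density `p s ^ (p - 1)` on the positive half-line. -/
noncomputable def rad (p : ℕ) : Measure ℝ :=
  (volume.restrict (Ioi (0 : ℝ))).withDensity fun s => ENNReal.ofReal (p * s ^ (p - 1))

instance rad_sigmaFinite (p : ℕ) : SigmaFinite (rad p) := by
  unfold rad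
  exact SigmaFinite.withDensity_ofReal _

lemma rad_apply (p : ℕ) {A : Set ℝ} (hA : MeasurableSet A) :
    rad p A = ∫⁻ x in A ∩ Ioi 0, ENNReal.ofReal (p * x ^ (p - 1)) := by
  rw [rad, withDensity_apply _ hA, Measure.restrict_restrict hA]

lemma rad_Iic {p : ℕ} (hp : 1 ≤ p) (s : ℝ) : rad p (Iic s) = ENNReal.ofReal ((max s 0) ^ p) := by
  rw [rad_apply p measurableSet_Iic]
  rcases le_or_gt s 0 with hs | hs
  · have : Iic s ∩ Ioi 0 = ∅ := by
      ext x
      simp only [mem_inter_iff, mem_Iic, mem_Ioi, mem_empty_iff_false, iff_false, not_and, not_lt]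
      intro h
      linarith
    rw [this, max_eq_right hs]
    simp [show p ≠ 0 by omega]
  · have : Iic s ∩ Ioi 0 = Ioc 0 s := by
      ext x
      simp only [mem_inter_iff, mem_Iic, mem_Ioi, mem_Ioc]
      tauto
    rw [this, max_eq_left hs.le]
    obtain ⟨n, rfl⟩ : ∃ n, p = n + 1 := ⟨p - 1, by omega⟩
    simp only [Nat.add_sub_cancel]
    have hc : Continuous fun x : ℝ => ((n + 1 : ℕ) : ℝ) * x ^ n := by fun_prop
    rw [← ofReal_integral_eq_lintegral_ofReal
      ((hc.integrableOn_Icc (a := 0) (b := s)).mono_set Ioc_subset_Icc_self)]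
    · congr 1
      rw [← intervalIntegral.integral_of_le hs.le, intervalIntegral.integral_const_mul, integral_pow]
      have : ((n : ℝ) + 1) ≠ 0 := by positivity
      simp only [Nat.cast_add, Nat.cast_one]
      field_simp
      simp
    · filter_upwards [ae_restrict_mem measurableSet_Ioc] with x hx
      have := hx.1
      simp only [Pi.zero_apply]
      positivity

lemma rad_ae_pos (p : ℕ) : ∀ᵐ s ∂(rad p), 0 < s := by
  unfold rad
  refine (withDensity_absolutelyContinuous _ _).ae_le ?_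
  exact ae_restrict_mem measurableSet_Ioi

/-- Measures on the line with the same finite distribution function are equal. -/
lemma ext_of_Iic_eq {μ ν : Measure ℝ} (hfin : ∀ s, μ (Iic s) ≠ ∞) (h : ∀ s, μ (Iic s) = ν (Iic s)) :
    μ = ν := by
  have hfin' : ∀ s, ν (Iic s) ≠ ∞ := fun s => by rw [← h]; exact hfin s
  have hdiff : ∀ a b : ℝ, Iic b \ Iic a = Ioc a b := by
    intro a b
    ext x
    simp only [mem_diff, mem_Iic, not_le, mem_Ioc]
    tauto
  apply Measure.ext_of_Ioc' μ ν
  · intro a b hab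
    rw [← hdiff a b, measure_diff (Iic_subset_Iic.2 hab.le) measurableSet_Iic.nullMeasurableSet
      (hfin a)]
    exact ENNReal.sub_ne_top (hfin b)
  · intro a b hab
    rw [← hdiff a b, measure_diff (Iic_subset_Iic.2 hab.le) measurableSet_Iic.nullMeasurableSet
      (hfin a), measure_diff (Iic_subset_Iic.2 hab.le) measurableSet_Iic.nullMeasurableSet (hfin' a),
      h, h]

variable {ι : Type*} [Fintype ι] [Nonempty ι]

/-- Scaling of the sublevel sets. -/
lemma volume_sublevel {N : (ι → ℝ) → ℝ} (hhom : ∀ c : ℝ, 0 < c → ∀ x, N (c • x) = c * N x)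
    {B : Set (ι → ℝ)} (hB : ∀ c : ℝ, 0 < c → ∀ x, c • x ∈ B ↔ x ∈ B) {s : ℝ} (hs : 0 < s) :
    volume (B ∩ {x | N x ≤ s}) = ENNReal.ofReal (s ^ Fintype.card ι) * volume (B ∩ {x | N x ≤ 1}) := by
  have e : B ∩ {x | N x ≤ s} = s • (B ∩ {x | N x ≤ 1}) := by
    ext x
    rw [Set.mem_smul_set_iff_inv_smul_mem₀ hs.ne']
    simp only [mem_inter_iff, mem_ofPred_eq]
    rw [hB s⁻¹ (inv_pos.2 hs) x, hhom s⁻¹ (inv_pos.2 hs) x]
    have : s⁻¹ * N x ≤ 1 ↔ N x ≤ s := by
      rw [inv_mul_le_iff₀ hs, mul_one]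
    rw [this]
  rw [e, Measure.addHaar_smul_of_nonneg _ hs.le, Module.finrank_fintype_fun_eq_card]

/-- The law of a homogeneous function on a cone. -/
lemma map_restrict_radial {N : (ι → ℝ) → ℝ} (hNm : Measurable N)
    (hhom : ∀ c : ℝ, 0 < c → ∀ x, N (c • x) = c * N x) (hN0 : ∀ x, N x ≤ 0 → x = 0)
    (hfin : volume {x | N x ≤ 1} ≠ ∞)
    {B : Set (ι → ℝ)} (hBm : MeasurableSet B) (hB : ∀ c : ℝ, 0 < c → ∀ x, c • x ∈ B ↔ x ∈ B) :
    Measure.map N (volume.restrict B) = volume (B ∩ {x | N x ≤ 1}) • rad (Fintype.card ι) := by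
  have hp : 1 ≤ Fintype.card ι := Fintype.card_pos
  have hc : volume (B ∩ {x | N x ≤ 1}) ≠ ∞ :=
    ne_top_of_le_ne_top hfin (measure_mono inter_subset_right)
  have hcdf : ∀ s, Measure.map N (volume.restrict B) (Iic s)
      = (volume (B ∩ {x | N x ≤ 1}) • rad (Fintype.card ι)) (Iic s) := by
    intro s
    rw [Measure.map_apply hNm measurableSet_Iic,
      Measure.restrict_apply (hNm measurableSet_Iic), Measure.smul_apply, rad_Iic hp, smul_eq_mul,
      inter_comm]
    have e : B ∩ N ⁻¹' Iic s = B ∩ {x | N x ≤ s} := rfl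
    rw [e]
    rcases le_or_gt s 0 with hs | hs
    · have h1 : B ∩ {x | N x ≤ s} ⊆ {0} := by
        intro x hx
        exact hN0 x (hx.2.trans hs)
      have h2 : volume (B ∩ {x | N x ≤ s}) = 0 :=
        measure_mono_null h1 (by simp)
      rw [h2, max_eq_right hs]
      simp [show Fintype.card ι ≠ 0 by omega]
    · rw [volume_sublevel hhom hB hs, max_eq_left hs.le, mul_comm]
  refine ext_of_Iic_eq ?_ hcdf
  intro s
  rw [hcdf, Measure.smul_apply, rad_Iic hp, smul_eq_mul]
  exact ENNReal.mul_ne_top hc ENNReal.ofReal_ne_top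

/-- The polar decomposition of Lebesgue measure. -/
theorem map_radial {Ω : Type*} [MeasurableSpace Ω] {N : (ι → ℝ) → ℝ} {y : (ι → ℝ) → Ω}
    (hNm : Measurable N) (hym : Measurable y)
    (hhom : ∀ c : ℝ, 0 < c → ∀ x, N (c • x) = c * N x) (hN0 : ∀ x, N x ≤ 0 → x = 0)
    (hyhom : ∀ c : ℝ, 0 < c → ∀ x, y (c • x) = y x)
    (hfin : volume {x | N x ≤ 1} ≠ ∞) :
    Measure.map (fun x => (y x, N x)) volume
      = (Measure.map y (volume.restrict {x | N x ≤ 1})).prod (rad (Fintype.card ι)) := by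
  haveI : IsFiniteMeasure (volume.restrict {x : ι → ℝ | N x ≤ 1}) :=
    ⟨by rw [Measure.restrict_apply_univ]; exact hfin.lt_top⟩
  symm
  apply Measure.prod_eq
  intro E t hE ht
  have hm : Measurable fun x => (y x, N x) := hym.prodMk hNm
  have hB : ∀ c : ℝ, 0 < c → ∀ x, c • x ∈ y ⁻¹' E ↔ x ∈ y ⁻¹' E := by
    intro c hc x
    simp only [mem_preimage, hyhom c hc x]
  have hlaw := map_restrict_radial hNm hhom hN0 hfin (hym hE) hB
  rw [Measure.map_apply hm (hE.prod ht), Measure.map_apply hym hE,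
    Measure.restrict_apply (hym hE)]
  have e1 : (fun x => (y x, N x)) ⁻¹' (E ×ˢ t) = N ⁻¹' t ∩ y ⁻¹' E := by
    ext x
    simp [and_comm]
  rw [e1, ← Measure.restrict_apply (hNm ht), ← Measure.map_apply hNm ht, hlaw, Measure.smul_apply,
    smul_eq_mul]

/-- The polar integration formula. -/
theorem lintegral_radial {Ω : Type*} [MeasurableSpace Ω] {N : (ι → ℝ) → ℝ} {y : (ι → ℝ) → Ω}
    (hNm : Measurable N) (hym : Measurable y)
    (hhom : ∀ c : ℝ, 0 < c → ∀ x, N (c • x) = c * N x) (hN0 : ∀ x, N x ≤ 0 → x = 0)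
    (hyhom : ∀ c : ℝ, 0 < c → ∀ x, y (c • x) = y x)
    (hfin : volume {x | N x ≤ 1} ≠ ∞) {f : Ω × ℝ → ℝ≥0∞} (hf : Measurable f) :
    ∫⁻ x, f (y x, N x) = ∫⁻ ω, ∫⁻ s, f (ω, s) ∂(rad (Fintype.card ι))
        ∂(Measure.map y (volume.restrict {x | N x ≤ 1})) := by
  haveI : IsFiniteMeasure (volume.restrict {x : ι → ℝ | N x ≤ 1}) :=
    ⟨by rw [Measure.restrict_apply_univ]; exact hfin.lt_top⟩
  have hm : Measurable fun x => (y x, N x) := hym.prodMk hNm
  rw [← lintegral_map hf hm, map_radial hNm hym hhom hN0 hyhom hfin,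
    lintegral_prod _ hf.aemeasurable]

/-- The slope substitution on a half-line. -/
lemma lintegral_Ioi_exp {g : ℝ → ℝ≥0∞} {s : ℝ} (hs : 0 < s) :
    ∫⁻ t in Ioi 0, g t = ∫⁻ v, ENNReal.ofReal (s * Real.exp v) * g (s * Real.exp v) := by
  have himg : (fun v => s * Real.exp v) '' univ = Ioi 0 := by
    ext t
    simp only [image_univ, mem_range, mem_Ioi]
    constructor
    · rintro ⟨v, rfl⟩
      positivity
    · intro ht
      refine ⟨Real.log (t / s), ?_⟩
      rw [Real.exp_log (div_pos ht hs)]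
      field_simp
  have hder : ∀ v ∈ (univ : Set ℝ), HasDerivWithinAt (fun v => s * Real.exp v) (s * Real.exp v) univ v :=
    fun v _ => ((Real.hasDerivAt_exp v).const_mul s).hasDerivWithinAt
  have hinj : InjOn (fun v => s * Real.exp v) univ := by
    intro a _ b _ h
    have : Real.exp a = Real.exp b := mul_left_cancel₀ hs.ne' h
    exact Real.exp_injective this
  have := lintegral_image_eq_lintegral_abs_deriv_mul MeasurableSet.univ hder hinj g
  rw [himg] at this
  rw [this, Measure.restrict_univ]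
  refine lintegral_congr fun v => ?_
  rw [abs_of_pos (by positivity)]

lemma ofReal_three (a b c : ℝ) (ha : 0 ≤ a) (hb : 0 ≤ b) (X : ℝ≥0∞) :
    ENNReal.ofReal a * (ENNReal.ofReal b * (ENNReal.ofReal c * X))
      = ENNReal.ofReal (a * (b * c)) * X := by
  rw [ENNReal.ofReal_mul ha, ENNReal.ofReal_mul hb]
  ring

/-- The slope formula for the radial measures. -/
theorem lintegral_rad_slope {p q : ℕ} (hp : 1 ≤ p) (hq : 1 ≤ q) {F : ℝ × ℝ → ℝ≥0∞}
    (hF : Measurable F) :
    ∫⁻ s, ∫⁻ t, F (s, t) ∂(rad q) ∂(rad p)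
      = ENNReal.ofReal ((p : ℝ) * q / (p + q)) *
        ∫⁻ v, ENNReal.ofReal (Real.exp (q * v)) * ∫⁻ s, F (s, s * Real.exp v) ∂(rad (p + q)) := by
  have hdens : ∀ n : ℕ, Measurable fun s : ℝ => ENNReal.ofReal ((n : ℝ) * s ^ (n - 1)) := fun n =>
    ENNReal.measurable_ofReal.comp (by fun_prop)
  have hFs : ∀ s, Measurable fun t => F (s, t) := fun s => hF.comp (measurable_const.prodMk measurable_id)
  have hFray : Measurable fun z : ℝ × ℝ => F (z.2, z.2 * Real.exp z.1) :=
    hF.comp (measurable_snd.prodMk (by fun_prop))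
  -- the inner integral
  have h1 : ∀ s, 0 < s → ∫⁻ t, F (s, t) ∂(rad q)
      = ∫⁻ v, ENNReal.ofReal ((q : ℝ) * s ^ q * Real.exp (q * v)) * F (s, s * Real.exp v) := by
    intro s hs
    rw [rad, lintegral_withDensity_eq_lintegral_mul _ (hdens q) (hFs s)]
    simp only [Pi.mul_apply]
    rw [lintegral_Ioi_exp hs]
    refine lintegral_congr fun v => ?_
    rw [← mul_assoc, ← ENNReal.ofReal_mul (by positivity)]
    congr 2
    obtain ⟨n, rfl⟩ : ∃ n, q = n + 1 := ⟨q - 1, by omega⟩
    simp only [Nat.add_sub_cancel]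
    have : Real.exp (((n + 1 : ℕ) : ℝ) * v) = Real.exp v ^ (n + 1) := by
      rw [← Real.exp_nat_mul]
    rw [this]
    ring
  -- the outer integral
  have h2 : ∫⁻ s, ∫⁻ t, F (s, t) ∂(rad q) ∂(rad p)
      = ∫⁻ s in Ioi 0, ENNReal.ofReal ((p : ℝ) * s ^ (p - 1)) * ∫⁻ t, F (s, t) ∂(rad q) := by
    rw [rad, lintegral_withDensity_eq_lintegral_mul _ (hdens p)
      (hF.lintegral_prod_right' (ν := rad q))]
    rfl
  rw [h2]
  have h3 : ∫⁻ s in Ioi 0, ENNReal.ofReal ((p : ℝ) * s ^ (p - 1)) * ∫⁻ t, F (s, t) ∂(rad q)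
      = ∫⁻ s in Ioi 0, ∫⁻ v, ENNReal.ofReal ((p : ℝ) * s ^ (p - 1)
          * ((q : ℝ) * s ^ q * Real.exp (q * v))) * F (s, s * Real.exp v) := by
    refine setLIntegral_congr_fun measurableSet_Ioi fun s hs => ?_
    rw [h1 s hs, ← lintegral_const_mul]
    · refine lintegral_congr fun v => ?_
      have hs' : 0 < s := hs
      rw [← mul_assoc, ← ENNReal.ofReal_mul (by positivity)]
    · have hm : Measurable fun v => ENNReal.ofReal ((q : ℝ) * s ^ q * Real.exp (q * v)) :=
        ENNReal.measurable_ofReal.comp (by fun_prop)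
      exact hm.mul (hF.comp (measurable_const.prodMk (by fun_prop)))
  rw [h3]
  have hjoint : Measurable fun z : ℝ × ℝ => ENNReal.ofReal ((p : ℝ) * z.2 ^ (p - 1)
      * ((q : ℝ) * z.2 ^ q * Real.exp (q * z.1))) * F (z.2, z.2 * Real.exp z.1) :=
    (ENNReal.measurable_ofReal.comp (by fun_prop)).mul hFray
  have hsw : AEMeasurable (Function.uncurry fun s v : ℝ => ENNReal.ofReal ((p : ℝ) * s ^ (p - 1)
      * ((q : ℝ) * s ^ q * Real.exp (q * v))) * F (s, s * Real.exp v))
      ((volume.restrict (Ioi (0 : ℝ))).prod volume) :=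
    (hjoint.comp measurable_swap).aemeasurable
  rw [lintegral_lintegral_swap hsw, ← lintegral_const_mul]
  · refine lintegral_congr fun v => ?_
    have hray : Measurable fun s : ℝ => F (s, s * Real.exp v) :=
      hF.comp (measurable_id.prodMk (by fun_prop))
    rw [rad, lintegral_withDensity_eq_lintegral_mul _ (hdens (p + q)) hray]
    simp only [Pi.mul_apply]
    have h5 : Measurable fun s : ℝ => ENNReal.ofReal (((p + q : ℕ) : ℝ) * s ^ (p + q - 1))
        * F (s, s * Real.exp v) := (hdens (p + q)).mul hray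
    rw [← lintegral_const_mul _ h5, ← lintegral_const_mul _ (h5.const_mul _)]
    refine setLIntegral_congr_fun measurableSet_Ioi fun s hs => ?_
    have hs' : 0 < s := hs
    have hA : ENNReal.ofReal ((p : ℝ) * q / (p + q)) * (ENNReal.ofReal (Real.exp (q * v)) *
        (ENNReal.ofReal (((p + q : ℕ) : ℝ) * s ^ (p + q - 1)) * F (s, s * Real.exp v)))
        = ENNReal.ofReal ((p : ℝ) * q / (p + q) * (Real.exp (q * v) *
          (((p + q : ℕ) : ℝ) * s ^ (p + q - 1)))) * F (s, s * Real.exp v) := by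
      exact ofReal_three _ _ _ (by positivity) (by positivity) _
    rw [hA]
    congr 2
    have e : s ^ (p + q - 1) = s ^ (p - 1) * s ^ q := by
      rw [← pow_add]
      congr 1
      omega
    rw [e]
    have hne : ((p : ℝ) + q) ≠ 0 := by positivity
    push_cast
    field_simp
  · have h7 : Measurable fun v : ℝ => ENNReal.ofReal (Real.exp (q * v)) :=
      ENNReal.measurable_ofReal.comp (by fun_prop)
    have h8 : Measurable fun v : ℝ => ∫⁻ s, F (s, s * Real.exp v) ∂(rad (p + q)) := by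
      have h9 : Measurable fun z : ℝ × ℝ => F (z.2, z.2 * Real.exp z.1) := hFray
      exact h9.lintegral_prod_right' (ν := rad (p + q))
    exact h7.mul h8

end Vale.Agent.Lib.P227G
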