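import Mathlib
import Vale.Agent.Lib.P227G.Erosion

/-!
# The grid sets of a planar set and the reflection inequality for them
-/

open MeasureTheory Set
open scoped ENNReal

namespace Vale.Agent.Lib.P227G

/-- The grid set of a planar set. -/
def Zset (κ₁ κ₂ : Type*) (A : Set (ℝ × ℝ)) : Set ((κ₁ → ℝ) × (κ₂ → ℝ)) :=
  {z | ∀ k l, (z.1 k, z.2 l) ∈ A}

lemma measurable_cons {p : ℕ} :
    Measurable fun z : ℝ × (Fin p → ℝ) => (Fin.cons z.1 z.2 : Fin (p + 1) → ℝ) := by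
  refine measurable_pi_iff.2 fun i => ?_
  refine Fin.cases ?_ (fun j => ?_) i
  · simpa using measurable_fst
  · simp only [Fin.cons_succ]
    exact (measurable_pi_apply j).comp measurable_snd

lemma measurable_shear {p : ℕ} :
    Measurable fun z : (Fin p → ℝ) × ℝ =>
      (Fin.cons z.2 (fun i => z.1 i + z.2) : Fin (p + 1) → ℝ) := by
  refine measurable_cons.comp (f := fun z : (Fin p → ℝ) × ℝ => (z.2, fun i => z.1 i + z.2)) ?_
  refine measurable_snd.prodMk ?_
  refine measurable_pi_iff.2 fun i => ?_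
  exact ((measurable_pi_apply i).comp measurable_fst).add measurable_snd

/-- Integration over `Fin (p + 1) → ℝ` in the coordinates first entry and differences. -/
lemma lintegral_shear {p : ℕ} {f : (Fin (p + 1) → ℝ) → ℝ≥0∞} (hf : Measurable f) :
    ∫⁻ ρ, f ρ = ∫⁻ α : Fin p → ℝ, ∫⁻ a : ℝ, f (Fin.cons a (fun i => α i + a)) := by
  have mp := volume_preserving_piFinSuccAbove (fun _ : Fin (p + 1) => ℝ) 0
  have e1 : ∫⁻ ρ, f ρ = ∫⁻ z : ℝ × (Fin p → ℝ), f (Fin.cons z.1 z.2) := by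
    rw [← mp.symm.lintegral_comp hf]
    refine lintegral_congr fun z => ?_
    congr 1
    ext i
    refine Fin.cases ?_ (fun j => ?_) i
    · simp [MeasurableEquiv.piFinSuccAbove]
    · simp [MeasurableEquiv.piFinSuccAbove]
  rw [e1, Measure.volume_eq_prod, lintegral_prod (fun z : ℝ × (Fin p → ℝ) => f (Fin.cons z.1 z.2))
    (hf.comp measurable_cons).aemeasurable]
  have e2 : ∀ a : ℝ, ∫⁻ α' : Fin p → ℝ, f (Fin.cons a α')
      = ∫⁻ α : Fin p → ℝ, f (Fin.cons a (fun i => α i + a)) := by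
    intro a
    have hm : Measurable fun α' : Fin p → ℝ => f (Fin.cons a α') :=
      hf.comp (measurable_cons.comp (measurable_const.prodMk measurable_id))
    exact (lintegral_add_right_eq_self (μ := volume) (fun α' : Fin p → ℝ => f (Fin.cons a α'))
      (fun _ => a)).symm
  simp_rw [e2]
  rw [lintegral_lintegral_swap]
  exact (hf.comp measurable_shear).aemeasurable.comp_measurable measurable_swap

/-- The set of base points of a grid. -/
def gridSet {p q : ℕ} (A : Set (ℝ × ℝ)) (α : Fin p → ℝ) (β : Fin q → ℝ) : Set (ℝ × ℝ) :=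
  {c | ∀ (k : Fin (p + 1)) (l : Fin (q + 1)),
    (c.1 + (Fin.cons 0 α : Fin (p + 1) → ℝ) k, c.2 + (Fin.cons 0 β : Fin (q + 1) → ℝ) l) ∈ A}

lemma cons_shear {p : ℕ} (a : ℝ) (α : Fin p → ℝ) (k : Fin (p + 1)) :
    (Fin.cons a (fun i => α i + a) : Fin (p + 1) → ℝ) k
      = a + (Fin.cons 0 α : Fin (p + 1) → ℝ) k := by
  refine Fin.cases ?_ (fun j => ?_) k
  · simp
  · simp [add_comm]

lemma isClosed_Zset {κ₁ κ₂ : Type*} {A : Set (ℝ × ℝ)} (hA : IsClosed A) :
    IsClosed (Zset κ₁ κ₂ A) := by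
  have : Zset κ₁ κ₂ A = ⋂ k, ⋂ l, (fun z : (κ₁ → ℝ) × (κ₂ → ℝ) => (z.1 k, z.2 l)) ⁻¹' A := by
    ext z
    simp [Zset]
  rw [this]
  exact isClosed_iInter fun k => isClosed_iInter fun l => hA.preimage (by fun_prop)

lemma isClosed_gridSet {p q : ℕ} {A : Set (ℝ × ℝ)} (hA : IsClosed A) (α : Fin p → ℝ)
    (β : Fin q → ℝ) : IsClosed (gridSet A α β) := by
  have : gridSet A α β = ⋂ k, ⋂ l, (fun c : ℝ × ℝ =>
      (c.1 + (Fin.cons 0 α : Fin (p + 1) → ℝ) k, c.2 + (Fin.cons 0 β : Fin (q + 1) → ℝ) l)) ⁻¹' A := by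
    ext z
    simp [gridSet]
  rw [this]
  exact isClosed_iInter fun k => isClosed_iInter fun l => hA.preimage (by fun_prop)

/-- The volume of the grid set of `A`, fibered over the differences. -/
lemma volume_Zset_fin {p q : ℕ} {A : Set (ℝ × ℝ)} (hA : IsClosed A) :
    volume (Zset (Fin (p + 1)) (Fin (q + 1)) A)
      = ∫⁻ α : Fin p → ℝ, ∫⁻ β : Fin q → ℝ, volume (gridSet A α β) := by
  have hZ : MeasurableSet (Zset (Fin (p + 1)) (Fin (q + 1)) A) :=
    (isClosed_Zset hA).measurableSet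
  set F := (Zset (Fin (p + 1)) (Fin (q + 1)) A).indicator (1 : ((Fin (p + 1) → ℝ) × (Fin (q + 1) → ℝ)) → ℝ≥0∞) with hF
  have hFm : Measurable F := measurable_one.indicator hZ
  rw [← lintegral_indicator_one hZ, Measure.volume_eq_prod, lintegral_prod _ hFm.aemeasurable]
  have hm1 : ∀ ρ : Fin (p + 1) → ℝ, Measurable fun t : Fin (q + 1) → ℝ => F (ρ, t) := fun ρ =>
    hFm.comp (measurable_const.prodMk measurable_id)
  have hg : Measurable fun ρ : Fin (p + 1) → ℝ => ∫⁻ t : Fin (q + 1) → ℝ, F (ρ, t) :=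
    hFm.lintegral_prod_right'
  rw [lintegral_shear hg]
  refine lintegral_congr fun α => ?_
  have e1 : ∀ a : ℝ, ∫⁻ t : Fin (q + 1) → ℝ, F (Fin.cons a (fun i => α i + a), t)
      = ∫⁻ β : Fin q → ℝ, ∫⁻ b : ℝ, F (Fin.cons a (fun i => α i + a),
          Fin.cons b (fun i => β i + b)) := fun a =>
    lintegral_shear (hm1 _)
  simp_rw [e1]
  have hmeas : Measurable fun w : (ℝ × (Fin q → ℝ)) × ℝ =>
      F (Fin.cons w.1.1 (fun i => α i + w.1.1), Fin.cons w.2 (fun i => w.1.2 i + w.2)) := by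
    refine hFm.comp (Measurable.prodMk ?_ ?_)
    · exact measurable_shear.comp (f := fun z : (ℝ × (Fin q → ℝ)) × ℝ => (α, z.1.1))
        (measurable_const.prodMk (measurable_fst.comp measurable_fst))
    · exact measurable_shear.comp (f := fun z : (ℝ × (Fin q → ℝ)) × ℝ => (z.1.2, z.2))
        ((measurable_snd.comp measurable_fst).prodMk measurable_snd)
  rw [lintegral_lintegral_swap (f := fun (a : ℝ) (β : Fin q → ℝ) =>
      ∫⁻ b : ℝ, F (Fin.cons a (fun i => α i + a), Fin.cons b (fun i => β i + b)))]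
  · refine lintegral_congr fun β => ?_
    have hG : MeasurableSet (gridSet A α β) := (isClosed_gridSet hA α β).measurableSet
    rw [← lintegral_indicator_one hG, Measure.volume_eq_prod,
      lintegral_prod _ (measurable_one.indicator hG).aemeasurable]
    refine lintegral_congr fun a => lintegral_congr fun b => ?_
    have hmem : ((Fin.cons a (fun i => α i + a), Fin.cons b (fun i => β i + b)) :
        (Fin (p + 1) → ℝ) × (Fin (q + 1) → ℝ)) ∈ Zset (Fin (p + 1)) (Fin (q + 1)) A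
          ↔ (a, b) ∈ gridSet A α β := by
      simp only [Zset, gridSet, mem_ofPred_eq]
      refine forall_congr' fun k => forall_congr' fun l => ?_
      rw [cons_shear, cons_shear]
    by_cases h : (a, b) ∈ gridSet A α β
    · rw [hF, indicator_of_mem (hmem.2 h), indicator_of_mem h]
      rfl
    · rw [hF, indicator_of_notMem (fun h2 => h (hmem.1 h2)), indicator_of_notMem h]
  · exact (hmeas.lintegral_prod_right' (ν := (volume : Measure ℝ))).aemeasurable

/-- A convex set in the plane is closed under coordinatewise betweenness, first coordinate. -/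
lemma convex_between_fst {A : Set (ℝ × ℝ)} (hA : Convex ℝ A) {x₁ x₂ x y : ℝ} (h1 : (x₁, y) ∈ A)
    (h2 : (x₂, y) ∈ A) (h3 : x₁ ≤ x) (h4 : x ≤ x₂) : (x, y) ∈ A := by
  have hc : Convex ℝ {t : ℝ | (t, y) ∈ A} := by
    intro a ha b hb s t hs ht hst
    have := hA ha hb hs ht hst
    simp only [Prod.smul_mk, Prod.mk_add_mk, smul_eq_mul, ← add_mul, hst, one_mul] at this
    simpa using this
  exact hc.ordConnected.out h1 h2 ⟨h3, h4⟩

/-- The same for the second coordinate. -/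
lemma convex_between_snd {A : Set (ℝ × ℝ)} (hA : Convex ℝ A) {y₁ y₂ x y : ℝ} (h1 : (x, y₁) ∈ A)
    (h2 : (x, y₂) ∈ A) (h3 : y₁ ≤ y) (h4 : y ≤ y₂) : (x, y) ∈ A := by
  have hc : Convex ℝ {t : ℝ | (x, t) ∈ A} := by
    intro a ha b hb s t hs ht hst
    have := hA ha hb hs ht hst
    simp only [Prod.smul_mk, Prod.mk_add_mk, smul_eq_mul, ← add_mul, hst, one_mul] at this
    simpa using this
  exact hc.ordConnected.out h1 h2 ⟨h3, h4⟩

/-- The grid set of a convex set is a translate of an erosion. -/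
lemma gridSet_eq_erode {A : Set (ℝ × ℝ)} (hA : Convex ℝ A) {κ₁ κ₂ : Type*} (α : κ₁ → ℝ) (β : κ₂ → ℝ)
    {k₁ k₂ : κ₁} {l₁ l₂ : κ₂}
    (hk₁ : ∀ k, α k₁ ≤ α k) (hk₂ : ∀ k, α k ≤ α k₂) (hl₁ : ∀ l, β l₁ ≤ β l) (hl₂ : ∀ l, β l ≤ β l₂) :
    {c : ℝ × ℝ | ∀ k l, (c.1 + α k, c.2 + β l) ∈ A}
      = (fun c : ℝ × ℝ => c + ((α k₁ + α k₂) / 2, (β l₁ + β l₂) / 2)) ⁻¹'
        erode A ((α k₂ - α k₁) / 2) ((β l₂ - β l₁) / 2) := by
  ext c
  simp only [mem_ofPred_eq, mem_preimage, erode, Prod.fst_add, Prod.snd_add]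
  constructor
  · intro h
    refine ⟨?_, ?_, ?_, ?_⟩
    · convert h k₂ l₂ using 2 <;> ring
    · convert h k₂ l₁ using 2 <;> ring
    · convert h k₁ l₂ using 2 <;> ring
    · convert h k₁ l₁ using 2 <;> ring
  · rintro ⟨h1, h2, h3, h4⟩ k l
    have e1 : c.1 + (α k₁ + α k₂) / 2 + (α k₂ - α k₁) / 2 = c.1 + α k₂ := by ring
    have e2 : c.1 + (α k₁ + α k₂) / 2 - (α k₂ - α k₁) / 2 = c.1 + α k₁ := by ring
    have e3 : c.2 + (β l₁ + β l₂) / 2 + (β l₂ - β l₁) / 2 = c.2 + β l₂ := by ring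
    have e4 : c.2 + (β l₁ + β l₂) / 2 - (β l₂ - β l₁) / 2 = c.2 + β l₁ := by ring
    rw [e1, e3] at h1
    rw [e1, e4] at h2
    rw [e2, e3] at h3
    rw [e2, e4] at h4
    have s1 : (c.1 + α k, c.2 + β l₂) ∈ A := convex_between_fst hA h3 h1
      (by linarith [hk₁ k]) (by linarith [hk₂ k])
    have s2 : (c.1 + α k, c.2 + β l₁) ∈ A := convex_between_fst hA h4 h2
      (by linarith [hk₁ k]) (by linarith [hk₂ k])
    exact convex_between_snd hA s2 s1 (by linarith [hl₁ l]) (by linarith [hl₂ l])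

/-- The reflection inequality for grid sets on `Fin`. -/
theorem volume_Zset_fin_le {p q : ℕ} {P : Set (ℝ × ℝ)} (hP : IsCompact P) (hconv : Convex ℝ P)
    (hsym : ∀ x ∈ P, -x ∈ P) :
    volume (Zset (Fin (p + 1)) (Fin (q + 1)) P)
      ≤ volume (Zset (Fin (p + 1)) (Fin (q + 1)) (polar2 P)) := by
  rw [volume_Zset_fin hP.isClosed, volume_Zset_fin isClosed_polar2]
  refine lintegral_mono fun α => lintegral_mono fun β => ?_
  set α' : Fin (p + 1) → ℝ := Fin.cons 0 α with hα'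
  set β' : Fin (q + 1) → ℝ := Fin.cons 0 β with hβ'
  obtain ⟨k₁, hk₁⟩ := Finite.exists_min α'
  obtain ⟨k₂, hk₂⟩ := Finite.exists_max α'
  obtain ⟨l₁, hl₁⟩ := Finite.exists_min β'
  obtain ⟨l₂, hl₂⟩ := Finite.exists_max β'
  have e1 : gridSet P α β = _ := gridSet_eq_erode hconv α' β' hk₁ hk₂ hl₁ hl₂
  have e2 : gridSet (polar2 P) α β = _ := gridSet_eq_erode convex_polar2 α' β' hk₁ hk₂ hl₁ hl₂
  rw [e1, e2, measure_preimage_add_right, measure_preimage_add_right]
  refine erosion_volume hP hsym ?_ ?_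
  · linarith [hk₁ k₂]
  · linarith [hl₁ l₂]

/-- Transport of grid sets along bijections of the index types. -/
lemma volume_Zset_congr {κ₁ κ₂ κ₁' κ₂' : Type*} [Fintype κ₁] [Fintype κ₂] [Fintype κ₁'] [Fintype κ₂']
    [DecidableEq κ₁] [DecidableEq κ₂] [DecidableEq κ₁'] [DecidableEq κ₂']
    (e₁ : κ₁ ≃ κ₁') (e₂ : κ₂ ≃ κ₂') {A : Set (ℝ × ℝ)} (hA : IsClosed A) :
    volume (Zset κ₁ κ₂ A) = volume (Zset κ₁' κ₂' A) := by
  have m1 := volume_measurePreserving_piCongrLeft (fun _ : κ₁' => ℝ) e₁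
  have m2 := volume_measurePreserving_piCongrLeft (fun _ : κ₂' => ℝ) e₂
  have m := m1.prod m2
  have hpre := m.measure_preimage (isClosed_Zset (κ₁ := κ₁') (κ₂ := κ₂') hA).measurableSet.nullMeasurableSet
  rw [Measure.volume_eq_prod, Measure.volume_eq_prod, ← hpre]
  congr 1
  ext ⟨ρ, t⟩
  simp only [Zset, mem_ofPred_eq, mem_preimage, Prod.map_apply]
  constructor
  · intro h k' l'
    obtain ⟨k, rfl⟩ := e₁.surjective k'
    obtain ⟨l, rfl⟩ := e₂.surjective l'
    have := h k l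
    simpa [MeasurableEquiv.coe_piCongrLeft, Equiv.piCongrLeft_apply_apply] using this
  · intro h k l
    have := h (e₁ k) (e₂ l)
    simpa [MeasurableEquiv.coe_piCongrLeft, Equiv.piCongrLeft_apply_apply] using this

/-- The reflection inequality for grid sets. -/
theorem volume_Zset_le {κ₁ κ₂ : Type*} [Fintype κ₁] [Fintype κ₂] [Nonempty κ₁] [Nonempty κ₂]
    {P : Set (ℝ × ℝ)} (hP : IsCompact P) (hconv : Convex ℝ P) (hsym : ∀ x ∈ P, -x ∈ P) :
    volume (Zset κ₁ κ₂ P) ≤ volume (Zset κ₁ κ₂ (polar2 P)) := by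
  classical
  obtain ⟨p, hp⟩ : ∃ p, Fintype.card κ₁ = p + 1 :=
    ⟨Fintype.card κ₁ - 1, by have := Fintype.card_pos (α := κ₁); omega⟩
  obtain ⟨q, hq⟩ : ∃ q, Fintype.card κ₂ = q + 1 :=
    ⟨Fintype.card κ₂ - 1, by have := Fintype.card_pos (α := κ₂); omega⟩
  have e₁ : κ₁ ≃ Fin (p + 1) := Fintype.equivFinOfCardEq hp
  have e₂ : κ₂ ≃ Fin (q + 1) := Fintype.equivFinOfCardEq hq
  rw [volume_Zset_congr e₁ e₂ hP.isClosed, volume_Zset_congr e₁ e₂ isClosed_polar2]
  exact volume_Zset_fin_le hP hconv hsym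

end Vale.Agent.Lib.P227G
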